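import Mathlib

/-!
# P207: parallel negatively curved algebraic curvature tensors (rank one), part 1

`R` is an algebraic curvature tensor on a real inner product space with `R · R = 0` and strictly
negative sectional curvature; `K v z = R v z v` is the Jacobi operator. If `K v x = a² x` and
`K v y = b² y`, then `-(1/a) R v x y + (1/b) R v y x` lies in the eigenspace of `(a + b)²` and
`(1/a) R v x y + (1/b) R v y x` in the one of `(a - b)²`. If `b²` is the largest eigenvalue of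
`K v`, every other positive eigenvalue is `b² / 4`.
-/

open scoped RealInnerProductSpace
open Module

noncomputable section

namespace Vale.Agent.P207.H747

/-- A parallel algebraic curvature tensor with negative sectional curvature. -/
structure ACT (V : Type*) [NormedAddCommGroup V] [InnerProductSpace ℝ V] where
  R : V →ₗ[ℝ] V →ₗ[ℝ] V →ₗ[ℝ] V
  anti : ∀ x y z, R x y z = - R y x z
  skew : ∀ x y z w, ⟪R x y z, w⟫ = -⟪z, R x y w⟫
  bianchi : ∀ x y z, R x y z + R y z x + R z x y = 0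
  der : ∀ x y z w u, R x y (R z w u) - R z w (R x y u) = R (R x y z) w u + R z (R x y w) u
  neg : ∀ v w, ⟪v, v⟫ = 1 → ⟪v, w⟫ = 0 → w ≠ 0 → 0 < ⟪R v w v, w⟫

namespace ACT

variable {V : Type*} [NormedAddCommGroup V] [InnerProductSpace ℝ V] (S : ACT V)

/-- the Jacobi operator `z ↦ R(v,z)v` -/
def K (v : V) : V →ₗ[ℝ] V where
  toFun z := S.R v z v
  map_add' x y := by simp
  map_smul' c x := by simp

theorem K_apply (v z : V) : S.K v z = S.R v z v := rfl

theorem R_self (x : V) : S.R x x = 0 := by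
  ext z
  have h := S.anti x x z
  have h2 : (2 : ℝ) • S.R x x z = 0 := by
    rw [two_smul]
    nth_rewrite 1 [h]
    simp
  simpa using h2

theorem anti' (x y : V) : S.R x y = - S.R y x := LinearMap.ext fun z => S.anti x y z

theorem K_self (v : V) : S.K v v = 0 := by rw [K_apply, R_self]; rfl

theorem inner_R_self (x y z : V) : ⟪S.R x y z, z⟫ = 0 := by
  have h := S.skew x y z z
  rw [real_inner_comm z (S.R x y z)] at h
  have h2 : ⟪z, S.R x y z⟫ = 0 := by linarith
  rw [real_inner_comm]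
  exact h2

theorem K_inner_self (v z : V) : ⟪S.K v z, v⟫ = 0 := S.inner_R_self v z v

/-- pair symmetry -/
theorem pair (x y z w : V) : ⟪S.R x y z, w⟫ = ⟪S.R z w x, y⟫ := by
  have b1 := congrArg (fun t => ⟪t, w⟫) (S.bianchi x y z)
  have b2 := congrArg (fun t => ⟪t, x⟫) (S.bianchi y z w)
  have b3 := congrArg (fun t => ⟪t, y⟫) (S.bianchi z w x)
  have b4 := congrArg (fun t => ⟪t, z⟫) (S.bianchi w x y)
  simp only [inner_add_left, inner_zero_left] at b1 b2 b3 b4
  have s1 := S.skew x y z w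
  have s2 := S.skew y z x w
  have s3 := S.skew z x y w
  have s4 := S.skew z w y x
  have s5 := S.skew w y z x
  have s6 := S.skew w x z y
  have c := fun a b : V => real_inner_comm a b
  have a1 := congrArg (fun t => ⟪t, w⟫) (S.anti x y z)
  have a2 := congrArg (fun t => ⟪t, x⟫) (S.anti z w y)
  have a3 := congrArg (fun t => ⟪t, z⟫) (S.anti w x y)
  have a4 := congrArg (fun t => ⟪t, y⟫) (S.anti z x w)
  have a5 := congrArg (fun t => ⟪t, z⟫) (S.anti w y x)
  simp only [inner_neg_left] at a1 a2 a3 a4 a5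
  have t1 := S.skew y z w x
  have t2 := S.skew x y w z
  have t3 := S.skew x z w y
  have t4 := S.skew y w x z
  have t5 := S.skew x w y z
  have d1 := congrArg (fun t => ⟪t, y⟫) (S.anti x z w)
  have d2 := congrArg (fun t => ⟪t, z⟫) (S.anti y w x)
  have d3 := congrArg (fun t => ⟪t, z⟫) (S.anti x w y)
  simp only [inner_neg_left] at d1 d2 d3
  simp only [real_inner_comm] at *
  linarith

theorem K_symm (v z w : V) : ⟪S.K v z, w⟫ = ⟪z, S.K v w⟫ := by
  rw [K_apply, K_apply, S.pair v z v w, real_inner_comm]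

/-- `v ↦ K_v` and `z ↦ K_z`: `⟨K_v z, z⟩ = ⟨K_z v, v⟩` -/
theorem K_swap (v z : V) : ⟪S.K v z, z⟫ = ⟪S.K z v, v⟫ := by
  have h1 := S.skew v z v z
  rw [K_apply, K_apply, h1, S.anti v z z, inner_neg_right, neg_neg, real_inner_comm]

/-- the commutator of `ρ(x) = R(v,x)` and `ρ(y)` -/
theorem comm_rho (v x y u : V) :
    S.R v x (S.R v y u) - S.R v y (S.R v x u) = S.R (S.K v x) y u + S.R v (S.R v x y) u :=
  S.der v x v y u

theorem R_apply_v (v x y : V) : S.R x y v = S.R v y x - S.R v x y := by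
  have h := S.bianchi x y v
  rw [S.anti y v x] at h
  have h2 : S.R x y v = S.R v y x - S.R v x y := by
    rw [eq_sub_iff_add_eq, ← sub_eq_zero]
    rw [← h]
    abel
  exact h2

variable {S} {v x y z : V} {α β a b : ℝ}

theorem K_rho (hx : S.K v x = α • x) (hy : S.K v y = β • y) :
    S.K v (S.R v x y) = (α + β) • S.R v x y - (2 * α) • S.R v y x := by
  have h := S.comm_rho v x y v
  rw [← K_apply, ← K_apply, hx, hy, map_smul, map_smul, map_smul, LinearMap.smul_apply,
    LinearMap.smul_apply, R_apply_v S v x y] at h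
  rw [K_apply]
  have h2 : S.R v (S.R v x y) v = β • S.R v x y - α • S.R v y x
      - α • (S.R v y x - S.R v x y) := by
    rw [h]; abel
  rw [h2]
  module

/-- the relation between `R(x,y)` and `ρ` -/
theorem R_eq_rho (hx : S.K v x = α • x) (hy : S.K v y = β • y) (u : V) :
    (β - α) • S.R x y u = S.R v (S.R v x y + S.R v y x) u := by
  have h1 := S.comm_rho v x y u
  have h2 := S.comm_rho v y x u
  rw [hx, map_smul, LinearMap.smul_apply, LinearMap.smul_apply] at h1
  rw [hy, map_smul, LinearMap.smul_apply, LinearMap.smul_apply, S.anti y x u] at h2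
  rw [map_add, LinearMap.add_apply]
  have h3 : S.R v (S.R v x y) u = S.R v x (S.R v y u) - S.R v y (S.R v x u) - α • S.R x y u := by
    rw [h1]; abel
  have h4 : S.R v (S.R v y x) u = S.R v y (S.R v x u) - S.R v x (S.R v y u)
      - β • -S.R x y u := by
    rw [h2]; abel
  rw [h3, h4]
  module

/-- sum of the roots -/
theorem K_S (ha : a ≠ 0) (hb : b ≠ 0) (hx : S.K v x = (a ^ 2) • x) (hy : S.K v y = (b ^ 2) • y) :
    S.K v (b⁻¹ • S.R v y x - a⁻¹ • S.R v x y) =
      ((a + b) ^ 2) • (b⁻¹ • S.R v y x - a⁻¹ • S.R v x y) := by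
  rw [map_sub, map_smul, map_smul, K_rho hx hy, K_rho hy hx]
  simp only [smul_sub, smul_smul]
  match_scalars <;> field_simp <;> ring

/-- difference of the roots -/
theorem K_D (ha : a ≠ 0) (hb : b ≠ 0) (hx : S.K v x = (a ^ 2) • x) (hy : S.K v y = (b ^ 2) • y) :
    S.K v (b⁻¹ • S.R v y x + a⁻¹ • S.R v x y) =
      ((b - a) ^ 2) • (b⁻¹ • S.R v y x + a⁻¹ • S.R v x y) := by
  rw [map_add, map_smul, map_smul, K_rho hx hy, K_rho hy hx]
  simp only [smul_sub, smul_add, smul_smul]
  match_scalars <;> field_simp <;> ring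

/-! ### the largest eigenvalue -/

theorem orth_of_eig (hα : α ≠ 0) (hx : S.K v x = α • x) : ⟪x, v⟫ = 0 := by
  have h := S.K_inner_self v x
  rw [hx, inner_smul_left] at h
  simpa [hα] using h

/-- the kernel of `K v` is spanned by `v` -/
theorem ker_K (hv : ⟪v, v⟫ = 1) (hx : S.K v x = 0) : x = ⟪x, v⟫ • v := by
  by_contra hne
  set w := x - ⟪x, v⟫ • v with hw
  have hw0 : w ≠ 0 := fun h => hne (sub_eq_zero.1 h)
  have h1 : ⟪v, w⟫ = 0 := by
    rw [hw, inner_sub_right, inner_smul_right, hv, real_inner_comm x v]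
    ring
  have h2 := S.neg v w hv h1 hw0
  have h3 : S.R v w v = 0 := by
    rw [← K_apply, hw, map_sub, map_smul, K_self, hx]
    simp
  rw [h3, inner_zero_left] at h2
  exact lt_irrefl _ h2

theorem eig_pos (hv : ⟪v, v⟫ = 1) (hx : S.K v x = α • x) (h0 : x ≠ 0) (hxv : ⟪v, x⟫ = 0) :
    0 < α := by
  have h2 := S.neg v x hv hxv h0
  rw [← K_apply, hx, inner_smul_left] at h2
  have h3 : 0 < ⟪x, x⟫ := real_inner_self_pos.2 h0
  exact (pos_iff_pos_of_mul_pos h2).2 h3

variable (S) in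
/-- `b²` bounds the eigenvalues of `K v` -/
def Bd (v : V) (b : ℝ) : Prop := ∀ (c : ℝ) (z : V), S.K v z = c • z → z ≠ 0 → c ≤ b ^ 2

theorem rho_rel (ha : 0 < a) (hb : 0 < b) (hB : S.Bd v b) (hx : S.K v x = (a ^ 2) • x)
    (hy : S.K v y = (b ^ 2) • y) : S.R v x y = (a / b) • S.R v y x := by
  have h := K_S ha.ne' hb.ne' hx hy
  have h0 : b⁻¹ • S.R v y x - a⁻¹ • S.R v x y = 0 := by
    by_contra hne
    have h1 := hB _ _ h hne
    nlinarith
  have h2 : a⁻¹ • S.R v x y = b⁻¹ • S.R v y x := (sub_eq_zero.1 h0).symm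
  have h3 := congrArg (fun z => a • z) h2
  simp only [smul_smul] at h3
  rw [mul_inv_cancel₀ ha.ne', one_smul] at h3
  rw [h3, div_eq_mul_inv]

theorem rho_self (hv : ⟪v, v⟫ = 1) (hb : b ≠ 0) (hy : S.K v y = (b ^ 2) • y) :
    S.R v y y = -(b ^ 2 * ⟪y, y⟫) • v := by
  have h := K_D hb hb hy hy
  rw [sub_self, zero_pow two_ne_zero, zero_smul, ← two_smul ℝ, smul_smul, map_smul] at h
  have h0 : S.K v (S.R v y y) = 0 := by
    have h1 : (2 * b⁻¹) ≠ 0 := by positivity
    exact (smul_eq_zero.1 h).resolve_left h1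
  have h1 := ker_K hv h0
  have h2 : ⟪S.R v y y, v⟫ = -(b ^ 2 * ⟪y, y⟫) := by
    rw [S.skew, ← K_apply, hy, inner_smul_right]
  rw [h1, h2]

theorem K_rho_max (ha : 0 < a) (hb : 0 < b) (hB : S.Bd v b) (hx : S.K v x = (a ^ 2) • x)
    (hy : S.K v y = (b ^ 2) • y) : S.K v (S.R v y x) = ((b - a) ^ 2) • S.R v y x := by
  have h := K_D ha.ne' hb.ne' hx hy
  rw [rho_rel ha hb hB hx hy, smul_smul, ← add_smul, map_smul, smul_comm] at h
  have h1 : b⁻¹ + a⁻¹ * (a / b) ≠ 0 := by positivity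
  exact smul_right_injective V h1 h

theorem R_xy (ha : 0 < a) (hb : 0 < b) (hB : S.Bd v b) (hx : S.K v x = (a ^ 2) • x)
    (hy : S.K v y = (b ^ 2) • y) (u : V) :
    S.R v (S.R v y x) u = (b * (b - a)) • S.R x y u := by
  have h := R_eq_rho hx hy u
  rw [rho_rel ha hb hB hx hy] at h
  have h2 : (a / b) • S.R v y x + S.R v y x = ((a + b) / b) • S.R v y x := by
    match_scalars; field_simp
  rw [h2, map_smul, LinearMap.smul_apply] at h
  have h3 : S.R v (S.R v y x) u = (b / (a + b)) • ((b ^ 2 - a ^ 2) • S.R x y u) := by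
    rw [h, smul_smul]
    have : b / (a + b) * ((a + b) / b) = 1 := by
      have : a + b ≠ 0 := by positivity
      field_simp
    rw [this, one_smul]
  rw [h3, smul_smul]
  congr 1
  have : a + b ≠ 0 := by positivity
  field_simp
  ring

/-- the square of `T = R(v,y)` on the eigenspace of `a²`, `0 < a < b` -/
theorem T_sq (hv : ⟪v, v⟫ = 1) (ha : 0 < a) (hab : a < b) (hB : S.Bd v b)
    (hx : S.K v x = (a ^ 2) • x) (hy : S.K v y = (b ^ 2) • y) :
    S.R v y (S.R v y x) = -(a * b ^ 3 / 2 * ⟪y, y⟫) • x := by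
  have hb : 0 < b := ha.trans hab
  have hTx := K_rho_max ha hb hB hx hy
  have h1 := R_xy ha hb hB hx hy y
  have h2 := rho_rel (sub_pos.2 hab) hb hB hTx hy
  have h3 := S.comm_rho v y x y
  rw [rho_self hv hb.ne' hy, rho_rel ha hb hB hx hy, hy, map_smul, map_smul, map_smul,
    LinearMap.smul_apply, LinearMap.smul_apply, ← K_apply S v x, hx, h2] at h3
  rw [h2] at h1
  have hba : b * (b - a) ≠ 0 := (mul_pos hb (sub_pos.2 hab)).ne'
  have h4 : S.R x y y = (1 / b ^ 2) • S.R v y (S.R v y x) := by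
    have h5 : S.R x y y = (b * (b - a))⁻¹ • ((b - a) / b) • S.R v y (S.R v y x) := by
      rw [h1, smul_smul, inv_mul_cancel₀ hba, one_smul]
    rw [h5, smul_smul]
    congr 1
    have : b - a ≠ 0 := (sub_pos.2 hab).ne'
    field_simp
  rw [S.anti y x y, h4] at h3
  set Z := S.R v y (S.R v y x) with hZ
  have h5 : (2 * a / b) • Z = -(a ^ 2 * b ^ 2 * ⟪y, y⟫) • x := by
    have h6 : (a / b) • Z - -(b ^ 2 * ⟪y, y⟫) • a ^ 2 • x - (b ^ 2 • -((1 / b ^ 2) • Z)
        + ((b - a) / b) • Z) = 0 := sub_eq_zero.2 h3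
    rw [← sub_eq_zero, ← h6]
    match_scalars
    · field_simp
      ring
    · ring
  have h6 : Z = (b / (2 * a)) • (2 * a / b) • Z := by
    rw [smul_smul]
    have : b / (2 * a) * (2 * a / b) = 1 := by field_simp
    rw [this, one_smul]
  rw [h6, h5, smul_smul]
  congr 1
  field_simp

/-- **the ratio of the roots is two** -/
theorem ratio (hv : ⟪v, v⟫ = 1) (ha : 0 < a) (hab : a < b) (hB : S.Bd v b)
    (hx : S.K v x = (a ^ 2) • x) (hy : S.K v y = (b ^ 2) • y) (hx0 : x ≠ 0) (hy0 : y ≠ 0) :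
    b = 2 * a := by
  have hb : 0 < b := ha.trans hab
  have hyy : 0 < ⟪y, y⟫ := real_inner_self_pos.2 hy0
  have h1 := T_sq hv ha hab hB hx hy
  have hTx := K_rho_max ha hb hB hx hy
  have h2 := T_sq hv (sub_pos.2 hab) (by linarith) hB hTx hy
  rw [h1, map_smul] at h2
  have hT0 : S.R v y x ≠ 0 := by
    intro h0
    rw [h0, map_zero] at h1
    have h3 := (smul_eq_zero.1 h1.symm).resolve_right hx0
    have h4 : 0 < a * b ^ 3 / 2 * ⟪y, y⟫ := by positivity
    linarith
  have h3 := smul_left_injective ℝ hT0 h2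
  have h4 : 0 < b ^ 3 / 2 * ⟪y, y⟫ := by positivity
  have h5 : a * (b ^ 3 / 2 * ⟪y, y⟫) = (b - a) * (b ^ 3 / 2 * ⟪y, y⟫) := by
    have h6 : -(a * b ^ 3 / 2 * ⟪y, y⟫) = -((b - a) * b ^ 3 / 2 * ⟪y, y⟫) := h3
    linarith
  have h6 := mul_right_cancel₀ h4.ne' h5
  linarith

end ACT

end Vale.Agent.P207.H747
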