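import Vale.Agent.P207.H747.Alg1

/-!
# P207: parallel negatively curved algebraic curvature tensors (rank one), part 2

The linear isometries preserving `R` act transitively on the unit sphere.
-/

open scoped RealInnerProductSpace Topology
open Module Filter

noncomputable section

set_option linter.unusedSectionVars false

namespace Vale.Agent.P207.H747

namespace ACT

variable {V : Type*} [NormedAddCommGroup V] [InnerProductSpace ℝ V] [FiniteDimensional ℝ V]
  (S : ACT V)

/-- the curvature tensor as a continuous trilinear map -/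
def RL : V →L[ℝ] V →L[ℝ] V →L[ℝ] V :=
  LinearMap.toContinuousLinearMap
    { toFun := fun x => LinearMap.toContinuousLinearMap
        { toFun := fun y => LinearMap.toContinuousLinearMap (S.R x y)
          map_add' := fun y z => by simp
          map_smul' := fun c y => by simp }
      map_add' := fun x y => by ext; simp
      map_smul' := fun c x => by ext; simp }

theorem RL_apply (x y z : V) : S.RL x y z = S.R x y z := rfl

omit [FiniteDimensional ℝ V] in
theorem hasDerivAt_tri (L : V →L[ℝ] V →L[ℝ] V →L[ℝ] V) {a b c : ℝ → V} {a' b' c' : V} {t : ℝ}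
    (ha : HasDerivAt a a' t) (hb : HasDerivAt b b' t) (hc : HasDerivAt c c' t) :
    HasDerivAt (fun t => L (a t) (b t) (c t))
      (L a' (b t) (c t) + L (a t) b' (c t) + L (a t) (b t) c') t := by
  have h0 : HasDerivAt (fun t => L (a t)) (L a') t := by
    have h := HasFDerivAt.comp_hasDerivAt (l := fun x => L x) (l' := L) t (L.hasFDerivAt) ha
    exact h
  have h1 : HasDerivAt (fun t => L (a t) (b t)) (L a' (b t) + L (a t) b') t := h0.clm_apply hb
  exact h1.clm_apply hc

theorem hasDerivAt_R {a b c : ℝ → V} {a' b' c' : V} {t : ℝ} (ha : HasDerivAt a a' t)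
    (hb : HasDerivAt b b' t) (hc : HasDerivAt c c' t) :
    HasDerivAt (fun t => S.R (a t) (b t) (c t))
      (S.R a' (b t) (c t) + S.R (a t) b' (c t) + S.R (a t) (b t) c') t :=
  hasDerivAt_tri S.RL ha hb hc

/-- the one-parameter group of `R(x,y)` -/
def expR (x y : V) (t : ℝ) : V →L[ℝ] V := NormedSpace.exp (t • S.RL x y)

theorem expR_zero (x y z : V) : S.expR x y 0 z = z := by
  simp [expR]

theorem expR_deriv (x y z : V) (t : ℝ) :
    HasDerivAt (fun t => S.expR x y t z) (S.R x y (S.expR x y t z)) t := by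
  have h := (hasDerivAt_exp_smul_const' (𝕂 := ℝ) (S.RL x y) t).clm_apply (hasDerivAt_const t z)
  simpa [expR, RL_apply] using h

theorem expR_inner (x y z w : V) (t : ℝ) : ⟪S.expR x y t z, S.expR x y t w⟫ = ⟪z, w⟫ := by
  have hd : ∀ t, HasDerivAt (fun t => ⟪S.expR x y t z, S.expR x y t w⟫) 0 t := by
    intro t
    have h := (S.expR_deriv x y z t).inner ℝ (S.expR_deriv x y w t)
    refine h.congr_deriv ?_
    rw [S.skew, real_inner_comm]
    ring
  have h := is_const_of_deriv_eq_zero (fun t => (hd t).differentiableAt) (fun t => (hd t).deriv)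
    t 0
  rw [h, expR_zero, expR_zero]

theorem expR_R (x y z w u : V) (t : ℝ) : S.expR x y t (S.R z w u) =
    S.R (S.expR x y t z) (S.expR x y t w) (S.expR x y t u) := by
  set F : ℝ → V := fun t => S.expR x y t (S.R z w u) -
    S.R (S.expR x y t z) (S.expR x y t w) (S.expR x y t u) with hF
  have hd : ∀ t, HasDerivAt F (S.R x y (F t)) t := by
    intro t
    have h1 := S.expR_deriv x y (S.R z w u) t
    have h2 := S.hasDerivAt_R (S.expR_deriv x y z t) (S.expR_deriv x y w t)
      (S.expR_deriv x y u t)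
    refine (h1.sub h2).congr_deriv ?_
    rw [hF]
    simp only [map_sub]
    have h3 := S.der x y (S.expR x y t z) (S.expR x y t w) (S.expR x y t u)
    rw [← h3]
    abel
  have hd2 : ∀ t, HasDerivAt (fun t => ⟪F t, F t⟫) 0 t := by
    intro t
    have h := (hd t).inner ℝ (hd t)
    refine h.congr_deriv ?_
    have h1 := S.inner_R_self x y (F t)
    rw [h1, real_inner_comm, h1, add_zero]
  have h := is_const_of_deriv_eq_zero (fun t => (hd2 t).differentiableAt)
    (fun t => (hd2 t).deriv) t 0
  have h0 : F 0 = 0 := by simp [hF, expR_zero]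
  rw [h0, inner_zero_left] at h
  exact sub_eq_zero.1 (inner_self_eq_zero.1 h)

/-- a linear isometry preserving the curvature -/
def IsSym (A : V →L[ℝ] V) : Prop :=
  (∀ x y, ⟪A x, A y⟫ = ⟪x, y⟫) ∧ ∀ x y z, A (S.R x y z) = S.R (A x) (A y) (A z)

theorem isSym_expR (x y : V) (t : ℝ) : S.IsSym (S.expR x y t) :=
  ⟨fun z w => S.expR_inner x y z w t, fun z w u => S.expR_R x y z w u t⟩

variable {S} in
theorem IsSym.comp {A B : V →L[ℝ] V} (hA : S.IsSym A) (hB : S.IsSym B) : S.IsSym (A ∘L B) :=
  ⟨fun x y => by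
    rw [ContinuousLinearMap.comp_apply, ContinuousLinearMap.comp_apply, hA.1, hB.1],
   fun x y z => by
    simp only [ContinuousLinearMap.comp_apply]
    rw [hB.2, hA.2]⟩

variable {S} in
theorem IsSym.norm {A : V →L[ℝ] V} (hA : S.IsSym A) (x : V) : ‖A x‖ = ‖x‖ := by
  have h := hA.1 x x
  rw [real_inner_self_eq_norm_sq, real_inner_self_eq_norm_sq] at h
  exact (sq_eq_sq₀ (norm_nonneg _) (norm_nonneg _)).1 h

theorem isCompact_sym : IsCompact {A : V →L[ℝ] V | S.IsSym A} := by
  have : ProperSpace (V →L[ℝ] V) := FiniteDimensional.proper ℝ _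
  refine Metric.isCompact_of_isClosed_isBounded ?_ ?_
  · have hap : ∀ x : V, Continuous (fun A : V →L[ℝ] V => A x) := fun x =>
      (ContinuousLinearMap.apply ℝ V x).continuous
    have e : {A : V →L[ℝ] V | S.IsSym A} =
        (⋂ x, ⋂ y, {A | ⟪A x, A y⟫ = ⟪x, y⟫}) ∩
        ⋂ x, ⋂ y, ⋂ z, {A | A (S.R x y z) = S.R (A x) (A y) (A z)} := by
      ext A
      simp [IsSym, Set.mem_iInter]
    rw [e]
    refine IsClosed.inter ?_ ?_
    · exact isClosed_iInter fun x => isClosed_iInter fun y =>
        isClosed_eq ((hap x).inner (hap y)) continuous_const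
    · refine isClosed_iInter fun x => isClosed_iInter fun y => isClosed_iInter fun z =>
        isClosed_eq (hap _) ?_
      have h1 : Continuous fun A : V →L[ℝ] V => S.RL (A x) (A y) (A z) :=
        ((S.RL.continuous.comp (hap x)).clm_apply (hap y)).clm_apply (hap z)
      exact h1
  · refine (Metric.isBounded_closedBall (x := (0 : V →L[ℝ] V)) (r := 1)).subset ?_
    intro A hA
    rw [mem_closedBall_zero_iff]
    refine A.opNorm_le_bound zero_le_one fun x => ?_
    rw [IsSym.norm hA x, one_mul]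

variable {S}

theorem eq_or_neg_of_K {v u : V} (hv : ‖v‖ = 1) (hu : ‖u‖ = 1) (h : S.K v u = 0) :
    u = v ∨ u = -v := by
  have hv' : ⟪v, v⟫ = 1 := by rw [real_inner_self_eq_norm_sq, hv, one_pow]
  have h1 := ker_K hv' h
  have h2 : |⟪u, v⟫| = 1 := by
    have := congrArg norm h1
    rw [norm_smul, hv, hu, mul_one, Real.norm_eq_abs] at this
    exact this.symm
  rcases (abs_eq zero_le_one).1 h2 with h3 | h3
  · left; rw [h1, h3, one_smul]
  · right; rw [h1, h3, neg_smul, one_smul]

/-- **transitivity** on the unit sphere -/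
theorem exists_sym (hn : 2 ≤ finrank ℝ V) {u v : V} (hv : ‖v‖ = 1) (hu : ‖u‖ = 1) :
    ∃ A, S.IsSym A ∧ A v = u := by
  have hap : Continuous (fun A : V →L[ℝ] V => ‖A v - u‖ ^ 2) :=
    (((ContinuousLinearMap.apply ℝ V v).continuous).sub continuous_const).norm.pow 2
  obtain ⟨A, hA, hmin⟩ := S.isCompact_sym.exists_isMinOn
    ⟨ContinuousLinearMap.id ℝ V, ⟨fun x y => rfl, fun x y z => rfl⟩⟩ hap.continuousOn
  refine ⟨A, hA, ?_⟩
  set v' := A v with hv'
  have hnv' : ‖v'‖ = 1 := by rw [hv', IsSym.norm hA, hv]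
  have hv1 : ⟪v', v'⟫ = 1 := by rw [real_inner_self_eq_norm_sq, hnv', one_pow]
  have hmin' : ∀ w t, ‖v' - u‖ ^ 2 ≤ ‖S.expR v' w t v' - u‖ ^ 2 := by
    intro w t
    have h := hmin (IsSym.comp (S.isSym_expR v' w t) hA)
    exact h
  have hexp : ∀ w t, ‖S.expR v' w t v' - u‖ ^ 2 = 2 - 2 * ⟪S.expR v' w t v', u⟫ := by
    intro w t
    have h1 := (S.isSym_expR v' w t).norm v'
    rw [norm_sub_sq_real, h1, hnv', hu]
    ring
  have hle : ∀ w t, ⟪S.expR v' w t v', u⟫ ≤ ⟪v', u⟫ := by
    intro w t
    have h1 := hmin' w t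
    have h2 := hexp w 0
    rw [expR_zero] at h2
    rw [h2, hexp w t] at h1
    linarith
  have hcrit : ∀ w, ⟪S.K v' w, u⟫ = 0 := by
    intro w
    have hd : HasDerivAt (fun t => ⟪S.expR v' w t v', u⟫) ⟪S.R v' w v', u⟫ 0 := by
      have h := (S.expR_deriv v' w v' 0).inner ℝ (hasDerivAt_const (0 : ℝ) u)
      refine h.congr_deriv ?_
      rw [expR_zero]
      simp
    have hmax : IsLocalMax (fun t => ⟪S.expR v' w t v', u⟫) 0 :=
      Eventually.of_forall fun t => by
        change ⟪S.expR v' w t v', u⟫ ≤ ⟪S.expR v' w 0 v', u⟫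
        rw [expR_zero]
        exact hle w t
    exact hmax.hasDerivAt_eq_zero hd
  have hKu : S.K v' u = 0 := by
    have h1 : ∀ w, ⟪S.K v' u, w⟫ = 0 := fun w => by
      rw [K_symm, real_inner_comm]; exact hcrit w
    exact inner_self_eq_zero.1 (h1 _)
  rcases eq_or_neg_of_K hnv' hu hKu with h | h
  · exact h.symm
  · exfalso
    -- choose `w` orthogonal to `v'`
    obtain ⟨w, hw0, hw⟩ : ∃ w : V, w ≠ 0 ∧ ⟪v', w⟫ = 0 := by
      have h1 : finrank ℝ (ℝ ∙ v')ᗮ = finrank ℝ V - 1 := by
        have h2 := Submodule.finrank_add_finrank_orthogonal (ℝ ∙ v')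
        have h3 : v' ≠ 0 := by
          intro h0; rw [h0, norm_zero] at hnv'; exact zero_ne_one hnv'
        rw [finrank_span_singleton h3] at h2
        omega
      have h2 : (ℝ ∙ v')ᗮ ≠ ⊥ := by
        intro h0
        rw [h0, finrank_bot] at h1
        omega
      obtain ⟨w, hw, hw0⟩ := Submodule.exists_mem_ne_zero_of_ne_bot h2
      exact ⟨w, hw0, Submodule.mem_orthogonal_singleton_iff_inner_right.1 hw⟩
    have h1 : ∀ t, ⟪S.expR v' w t v', u⟫ = -1 := by
      intro t
      have h2 := hle w t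
      rw [h, inner_neg_right, inner_neg_right, hv1] at h2
      have h3 : ⟪S.expR v' w t v', v'⟫ ≤ 1 := by
        have := real_inner_le_norm (S.expR v' w t v') v'
        rwa [(S.isSym_expR v' w t).norm v', hnv', mul_one] at this
      rw [h, inner_neg_right]
      linarith
    have h2 : ∀ t, S.expR v' w t v' = v' := by
      intro t
      have h3 := h1 t
      rw [h, inner_neg_right] at h3
      have h4 : ⟪S.expR v' w t v', v'⟫ = 1 := by linarith
      have h5 : ‖S.expR v' w t v' - v'‖ ^ 2 = 0 := by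
        rw [norm_sub_sq_real, (S.isSym_expR v' w t).norm v', h4, hnv']
        ring
      exact sub_eq_zero.1 (norm_eq_zero.1 (pow_eq_zero_iff (two_ne_zero) |>.1 h5))
    have h3 := S.expR_deriv v' w v' 0
    rw [funext h2] at h3
    have h4 := h3.unique (hasDerivAt_const (0 : ℝ) v')
    have h5 := S.neg v' w hv1 hw hw0
    rw [expR_zero] at h4
    rw [h4, inner_zero_left] at h5
    exact lt_irrefl _ h5

end ACT

end Vale.Agent.P207.H747
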