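import Vale.Agent.P207.H747.Alg2

/-!
# P207: parallel negatively curved algebraic curvature tensors (rank one), part 3

The eigenvalues of the Jacobi operators `K v`, `|v| = 1`, on `v^⊥` are `b²` and possibly `b² / 4`,
with `b > 0` and the multiplicities independent of `v`.
-/

open scoped RealInnerProductSpace Topology
open Module Filter

noncomputable section

set_option linter.unusedSectionVars false

namespace Vale.Agent.P207.H747

namespace ACT

variable {V : Type*} [NormedAddCommGroup V] [InnerProductSpace ℝ V] [FiniteDimensional ℝ V]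
  {S : ACT V} {A : V →L[ℝ] V} {v z : V} {b c : ℝ}

theorem IsSym.K (hA : S.IsSym A) (v z : V) : S.K (A v) (A z) = A (S.K v z) := by
  rw [K_apply, K_apply, hA.2]

theorem IsSym.injective (hA : S.IsSym A) : Function.Injective A := by
  rw [injective_iff_map_eq_zero]
  intro x hx
  have h := hA.norm x
  rw [hx, norm_zero] at h
  exact norm_eq_zero.1 h.symm

theorem IsSym.surjective (hA : S.IsSym A) : Function.Surjective A :=
  LinearMap.injective_iff_surjective (f := (A : V →ₗ[ℝ] V)).1 hA.injective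

theorem inner_self_one (hv : ‖v‖ = 1) : ⟪v, v⟫ = 1 := by
  rw [real_inner_self_eq_norm_sq, hv, one_pow]

theorem K_nonneg (hv : ‖v‖ = 1) (z : V) : 0 ≤ ⟪S.K v z, z⟫ := by
  have hv1 := inner_self_one hv
  set w := z - ⟪z, v⟫ • v with hw
  have hz : z = w + ⟪z, v⟫ • v := by rw [hw]; abel
  have h1 : ⟪v, w⟫ = 0 := by
    rw [hw, inner_sub_right, inner_smul_right, hv1, real_inner_comm z v]
    ring
  have hK : S.K v z = S.K v w := by
    rw [hw, map_sub, map_smul, K_self, smul_zero, sub_zero]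
  have h2 : ⟪S.K v z, z⟫ = ⟪S.K v w, w⟫ := by
    rw [hK]
    conv_lhs => rw [hz]
    rw [inner_add_right, inner_smul_right, K_inner_self, mul_zero, add_zero]
  rw [h2]
  by_cases h0 : w = 0
  · rw [h0]; simp
  · exact (S.neg v w hv1 h1 h0).le

variable (S) in
theorem K_isSymmetric (v : V) : (S.K v).IsSymmetric := fun x y => S.K_symm v x y

theorem exists_orth (hn : 2 ≤ finrank ℝ V) (v : V) : ∃ w : V, w ≠ 0 ∧ ⟪v, w⟫ = 0 := by
  have h1 : finrank ℝ (ℝ ∙ v) + finrank ℝ (ℝ ∙ v)ᗮ = finrank ℝ V :=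
    Submodule.finrank_add_finrank_orthogonal (ℝ ∙ v)
  have h3 : finrank ℝ (ℝ ∙ v) ≤ 1 := finrank_span_le_card ({v} : Set V) |>.trans (by simp)
  have h2 : (ℝ ∙ v)ᗮ ≠ ⊥ := by
    intro h0
    rw [h0, finrank_bot] at h1
    omega
  obtain ⟨w, hw, hw0⟩ := Submodule.exists_mem_ne_zero_of_ne_bot h2
  exact ⟨w, hw0, Submodule.mem_orthogonal_singleton_iff_inner_right.1 hw⟩

variable (S) in
/-- the normalisation `b² = max` of the eigenvalues -/
structure Nrm (b : ℝ) : Prop where
  pos : 0 < b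
  bd : ∀ v, ‖v‖ = 1 → S.Bd v b
  att : ∀ v, ‖v‖ = 1 → ∃ y, y ≠ 0 ∧ S.K v y = (b ^ 2) • y

theorem exists_nrm (hn : 2 ≤ finrank ℝ V) : ∃ b, S.Nrm b := by
  have : Nontrivial V := Module.nontrivial_of_finrank_pos (R := ℝ) (by omega)
  obtain ⟨v, hv⟩ := exists_norm_eq V (zero_le_one (α := ℝ))
  have hv1 := inner_self_one hv
  have hT := S.K_isSymmetric v
  set n := finrank ℝ V with hnn
  let e := hT.eigenvectorBasis hnn.symm
  let ev := hT.eigenvalues hnn.symm
  have he : ∀ i, S.K v (e i) = ev i • e i := fun i => hT.apply_eigenvectorBasis hnn.symm i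
  have hne : (Finset.univ : Finset (Fin n)).Nonempty := ⟨⟨0, by omega⟩, Finset.mem_univ _⟩
  obtain ⟨i₀, -, hi₀⟩ := Finset.exists_max_image Finset.univ ev hne
  have hmax : ∀ i, ev i ≤ ev i₀ := fun i => hi₀ i (Finset.mem_univ _)
  have hBd : ∀ (c : ℝ) (z : V), S.K v z = c • z → z ≠ 0 → c ≤ ev i₀ := by
    intro c z hz hz0
    by_contra hlt
    push Not at hlt
    have h1 : ∀ i, ⟪e i, z⟫ = 0 := by
      intro i
      have h2 := S.K_symm v (e i) z
      rw [he i, hz, inner_smul_left, inner_smul_right] at h2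
      have h3 : (ev i - c) * ⟪e i, z⟫ = 0 := by
        have : (starRingEnd ℝ) (ev i) = ev i := rfl
        rw [this] at h2
        linarith
      have h4 : ev i - c ≠ 0 := by
        have := hmax i
        exact (by linarith : ev i - c < 0).ne
      exact (mul_eq_zero.1 h3).resolve_left h4
    exact hz0 (by
      have h5 := e.sum_repr z
      rw [← h5]
      refine Finset.sum_eq_zero fun i _ => ?_
      rw [e.repr_apply_apply, h1 i, zero_smul])
  have hpos : 0 < ev i₀ := by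
    obtain ⟨w, hw0, hw⟩ := exists_orth hn v
    by_contra hle
    push Not at hle
    have h1 := S.neg v w hv1 hw hw0
    have h2 : ⟪S.K v w, w⟫ = ∑ i, ev i * ⟪e i, w⟫ ^ 2 := by
      have h3 := e.sum_inner_mul_inner (S.K v w) w
      rw [← h3]
      refine Finset.sum_congr rfl fun i _ => ?_
      rw [S.K_symm v w (e i), he i, inner_smul_right, real_inner_comm (e i) w]
      ring
    rw [← K_apply, h2] at h1
    have h3 : ∑ i, ev i * ⟪e i, w⟫ ^ 2 ≤ 0 := Finset.sum_nonpos fun i _ =>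
      mul_nonpos_of_nonpos_of_nonneg ((hmax i).trans hle) (sq_nonneg _)
    linarith
  refine ⟨Real.sqrt (ev i₀), Real.sqrt_pos.2 hpos, ?_, ?_⟩
  · intro u hu
    obtain ⟨A, hA, rfl⟩ := exists_sym (S := S) hn hv hu
    intro c z hz hz0
    obtain ⟨z, rfl⟩ := hA.surjective z
    rw [Real.sq_sqrt hpos.le]
    refine hBd c z ?_ fun h => hz0 (by rw [h, map_zero])
    rw [hA.K, ← map_smul] at hz
    exact hA.injective hz
  · intro u hu
    obtain ⟨A, hA, rfl⟩ := exists_sym (S := S) hn hv hu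
    refine ⟨A (e i₀), fun h => ?_, ?_⟩
    · have h1 := hA.norm (e i₀)
      rw [h, norm_zero, e.orthonormal.1] at h1
      exact zero_ne_one h1
    · rw [hA.K, he i₀, map_smul, Real.sq_sqrt hpos.le]

theorem Nrm.unique (hn : 2 ≤ finrank ℝ V) {b b' : ℝ} (h : S.Nrm b) (h' : S.Nrm b') : b = b' := by
  have : Nontrivial V := Module.nontrivial_of_finrank_pos (R := ℝ) (by omega)
  obtain ⟨v, hv⟩ := exists_norm_eq V (zero_le_one (α := ℝ))
  obtain ⟨y, hy0, hy⟩ := h.att v hv
  obtain ⟨y', hy0', hy'⟩ := h'.att v hv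
  have h1 := h.bd v hv _ _ hy' hy0'
  have h2 := h'.bd v hv _ _ hy hy0
  exact (sq_eq_sq₀ h.pos.le h'.pos.le).1 (le_antisymm h2 h1)

/-- **the spectrum** -/
theorem Nrm.spec (h : S.Nrm b) (hv : ‖v‖ = 1) (hz : S.K v z = c • z) (hz0 : z ≠ 0) :
    c = 0 ∨ c = b ^ 2 / 4 ∨ c = b ^ 2 := by
  have h1 := K_nonneg (S := S) hv z
  rw [hz, inner_smul_left] at h1
  have hc : 0 ≤ c := nonneg_of_mul_nonneg_left h1 (real_inner_self_pos.2 hz0)
  rcases hc.eq_or_lt with h0 | h0
  · exact Or.inl h0.symm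
  have h2 := h.bd v hv c z hz hz0
  rcases h2.eq_or_lt with h3 | h3
  · exact Or.inr (Or.inr h3)
  right; left
  obtain ⟨y, hy0, hy⟩ := h.att v hv
  have ha : 0 < Real.sqrt c := Real.sqrt_pos.2 h0
  have hab : Real.sqrt c < b := by
    rw [← Real.sqrt_sq h.pos.le]
    exact Real.sqrt_lt_sqrt hc h3
  have hx : S.K v z = (Real.sqrt c ^ 2) • z := by rw [Real.sq_sqrt hc, hz]
  have h4 := ratio (inner_self_one hv) ha hab (h.bd v hv) hx hy hz0 hy0
  rw [h4, mul_pow, Real.sq_sqrt hc]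
  ring

/-- the minimal polynomial of `K v` -/
theorem Nrm.cubic (h : S.Nrm b) (hv : ‖v‖ = 1) (z : V) :
    S.K v (S.K v (S.K v z)) - (5 * b ^ 2 / 4) • S.K v (S.K v z) + (b ^ 4 / 4) • S.K v z = 0 := by
  have hT := S.K_isSymmetric v
  set n := finrank ℝ V with hnn
  let e := hT.eigenvectorBasis hnn.symm
  let ev := hT.eigenvalues hnn.symm
  have he : ∀ i, S.K v (e i) = ev i • e i := fun i => hT.apply_eigenvectorBasis hnn.symm i
  have hlin : ((S.K v) ∘ₗ (S.K v) ∘ₗ (S.K v) - (5 * b ^ 2 / 4) • ((S.K v) ∘ₗ (S.K v))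
      + (b ^ 4 / 4) • S.K v) = 0 := by
    refine e.toBasis.ext fun i => ?_
    rw [OrthonormalBasis.coe_toBasis]
    simp only [LinearMap.add_apply, LinearMap.sub_apply, LinearMap.smul_apply,
      LinearMap.comp_apply, LinearMap.zero_apply, he i, map_smul, smul_smul]
    rw [← sub_smul, ← add_smul]
    have hne : e i ≠ 0 := fun h0 => by
      have := e.orthonormal.1 i
      rw [h0, norm_zero] at this
      exact zero_ne_one this
    have h1 : ev i * (ev i * ev i) - 5 * b ^ 2 / 4 * (ev i * ev i) + b ^ 4 / 4 * ev i = 0 := by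
      rcases h.spec hv (he i) hne with h0 | h0 | h0 <;> rw [h0] <;> ring
    convert zero_smul ℝ (e i) using 2
    linarith
  have := LinearMap.congr_fun hlin z
  simpa using this

/-- the projection on the eigenspace of `b²` -/
def pr2 (S : ACT V) (b : ℝ) (v z : V) : V :=
  (4 / (3 * b ^ 4)) • (S.K v (S.K v z) - (b ^ 2 / 4) • S.K v z)

/-- the projection on the eigenspace of `b² / 4` -/
def pr1 (S : ACT V) (b : ℝ) (v z : V) : V :=
  (16 / (3 * b ^ 4)) • ((b ^ 2) • S.K v z - S.K v (S.K v z))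

theorem Nrm.K_pr2 (h : S.Nrm b) (hv : ‖v‖ = 1) (z : V) :
    S.K v (pr2 S b v z) = (b ^ 2) • pr2 S b v z := by
  have h1 := h.cubic hv z
  have h2 : S.K v (S.K v (S.K v z)) = (5 * b ^ 2 / 4) • S.K v (S.K v z)
      - (b ^ 4 / 4) • S.K v z := by
    rw [← sub_eq_zero, ← h1]; abel
  unfold pr2
  rw [map_smul, map_sub, map_smul, h2]
  match_scalars <;> ring

theorem Nrm.K_pr1 (h : S.Nrm b) (hv : ‖v‖ = 1) (z : V) :
    S.K v (pr1 S b v z) = (b ^ 2 / 4) • pr1 S b v z := by
  have h1 := h.cubic hv z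
  have h2 : S.K v (S.K v (S.K v z)) = (5 * b ^ 2 / 4) • S.K v (S.K v z)
      - (b ^ 4 / 4) • S.K v z := by
    rw [← sub_eq_zero, ← h1]; abel
  unfold pr1
  rw [map_smul, map_sub, map_smul, h2]
  match_scalars <;> ring

/-- **the decomposition** -/
theorem Nrm.decomp (h : S.Nrm b) (hv : ‖v‖ = 1) (z : V) :
    z = ⟪z, v⟫ • v + pr1 S b v z + pr2 S b v z := by
  have hb := h.pos
  have h0 : S.K v (z - (pr1 S b v z + pr2 S b v z)) = 0 := by
    rw [map_sub, map_add, h.K_pr1 hv, h.K_pr2 hv]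
    unfold pr1 pr2
    match_scalars <;> field_simp <;> ring
  have h1 := ker_K (inner_self_one hv) h0
  have hp1 : ⟪pr1 S b v z, v⟫ = 0 :=
    orth_of_eig (by positivity) (h.K_pr1 hv z)
  have hp2 : ⟪pr2 S b v z, v⟫ = 0 :=
    orth_of_eig (by positivity) (h.K_pr2 hv z)
  rw [inner_sub_left, inner_add_left, hp1, hp2, add_zero, sub_zero] at h1
  rw [add_assoc, ← h1]
  abel

end ACT

end Vale.Agent.P207.H747
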