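import Vale.Agent.P207.H747.Alg3

/-!
# P207: parallel negatively curved algebraic curvature tensors (rank one), part 4

Normalisation `b = 2` (eigenvalues `1` and `4`). With `y, y'` in the eigenspace of `4` of `K v` and
`x, x'` in the eigenspace of `1`, all values of `R` are expressed by `v` and `R v y x = 2 J_y x`,
`J_y² = -|y|²`. The leaf `span (v, E4 v)` has constant curvature `-4` and is the leaf of each of
its unit vectors; `J_y J_{y'} x = -⟨y, y'⟩ x + J_{y''} x`.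
-/

open scoped RealInnerProductSpace Topology
open Module Filter

noncomputable section

set_option linter.unusedSectionVars false

namespace Vale.Agent.P207.H747

namespace ACT

variable {V : Type*} [NormedAddCommGroup V] [InnerProductSpace ℝ V] [FiniteDimensional ℝ V]

/-- multiplication of the curvature by a positive constant -/
def scale (S : ACT V) (c : ℝ) (hc : 0 < c) : ACT V where
  R := c • S.R
  anti x y z := by simp [S.anti x y z]
  skew x y z w := by
    simp only [LinearMap.smul_apply, inner_smul_left, inner_smul_right, S.skew x y z w]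
    simp
  bianchi x y z := by
    simp only [LinearMap.smul_apply, ← smul_add, S.bianchi, smul_zero]
  der x y z w u := by
    simp only [LinearMap.smul_apply, map_smul, ← smul_sub, ← smul_add, S.der]
  neg v w h1 h2 h3 := by
    simp only [LinearMap.smul_apply, inner_smul_left]
    exact mul_pos hc (S.neg v w h1 h2 h3)

theorem scale_R (S : ACT V) {c : ℝ} (hc : 0 < c) (x y z : V) :
    (S.scale c hc).R x y z = c • S.R x y z := rfl

theorem scale_K (S : ACT V) {c : ℝ} (hc : 0 < c) (v z : V) :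
    (S.scale c hc).K v z = c • S.K v z := rfl

theorem Nrm.scale {S : ACT V} {b : ℝ} (h : S.Nrm b) {c : ℝ} (hc : 0 < c) :
    (S.scale c hc).Nrm (Real.sqrt c * b) where
  pos := mul_pos (Real.sqrt_pos.2 hc) h.pos
  bd v hv d z hz hz0 := by
    rw [scale_K] at hz
    have h1 : S.K v z = (d / c) • z := by
      rw [div_eq_inv_mul, ← smul_smul, ← hz, smul_smul, inv_mul_cancel₀ hc.ne', one_smul]
    have h2 := h.bd v hv _ _ h1 hz0
    rw [mul_pow, Real.sq_sqrt hc.le]
    rwa [div_le_iff₀' hc] at h2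
  att v hv := by
    obtain ⟨y, hy0, hy⟩ := h.att v hv
    exact ⟨y, hy0, by rw [scale_K, hy, smul_smul, mul_pow, Real.sq_sqrt hc.le]⟩

/-- the scaled tensor with eigenvalues `1` and `4` -/
theorem Nrm.two {S : ACT V} {b : ℝ} (h : S.Nrm b) :
    (S.scale (4 / b ^ 2) (div_pos (by norm_num) (pow_pos h.pos 2))).Nrm 2 := by
  have h1 := h.scale (div_pos (by norm_num : (0 : ℝ) < 4) (pow_pos h.pos 2))
  have h2 : Real.sqrt (4 / b ^ 2) * b = 2 := by
    rw [Real.sqrt_div' _ (sq_nonneg b), Real.sqrt_sq h.pos.le]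
    have : Real.sqrt 4 = 2 := by
      rw [show (4 : ℝ) = 2 ^ 2 by norm_num, Real.sqrt_sq (by norm_num)]
    rw [this, div_mul_cancel₀ _ h.pos.ne']
  rwa [h2] at h1

variable {S : ACT V} {v x x' y y' y₁ y₂ y₃ u z : V}

section Two

theorem e1 (hx : S.K v x = x) : S.K v x = ((1 : ℝ) ^ 2) • x := by rw [one_pow, one_smul, hx]

theorem e4 (hy : S.K v y = (4 : ℝ) • y) : S.K v y = ((2 : ℝ) ^ 2) • y := by
  rw [hy]; norm_num

variable (h : S.Nrm 2) (hv : ‖v‖ = 1)
include h hv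

theorem Nrm.rho_yy (hy : S.K v y = (4 : ℝ) • y) (hy' : S.K v y' = (4 : ℝ) • y') :
    S.R v y y' = -(4 * ⟪y, y'⟫) • v := by
  have hv1 := inner_self_one hv
  have h1 := rho_rel (a := 2) (b := 2) two_pos two_pos (h.bd v hv) (e4 hy) (e4 hy')
  rw [div_self two_ne_zero, one_smul] at h1
  have h2 := rho_self hv1 two_ne_zero (e4 hy)
  have h3 := rho_self hv1 two_ne_zero (e4 hy')
  have h4 := rho_self hv1 two_ne_zero (y := y + y') (b := 2)
    (by rw [map_add, e4 hy, e4 hy', smul_add])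
  simp only [map_add, LinearMap.add_apply, h2, h3, ← h1, inner_add_left, inner_add_right] at h4
  have h5 : (2 : ℝ) • S.R v y y' = (2 : ℝ) • -(4 * ⟪y, y'⟫) • v := by
    have h6 : (2 : ℝ) • S.R v y y' = (-(2 ^ 2 * ⟪y, y⟫) • v + S.R v y y' +
        (S.R v y y' + -(2 ^ 2 * ⟪y', y'⟫) • v)) - (-(2 ^ 2 * ⟪y, y⟫) • v +
        -(2 ^ 2 * ⟪y', y'⟫) • v) := by
      rw [two_smul]; abel
    rw [h6, h4, real_inner_comm y y']
    module
  exact smul_right_injective V (two_ne_zero (α := ℝ)) h5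

theorem Nrm.rho_xy (hx : S.K v x = x) (hy : S.K v y = (4 : ℝ) • y) :
    S.R v x y = (1 / 2 : ℝ) • S.R v y x :=
  rho_rel (a := 1) (b := 2) one_pos two_pos (h.bd v hv) (e1 hx) (e4 hy)

theorem Nrm.K_rho_yx (hx : S.K v x = x) (hy : S.K v y = (4 : ℝ) • y) :
    S.K v (S.R v y x) = S.R v y x := by
  have h1 := K_rho_max (a := 1) (b := 2) one_pos two_pos (h.bd v hv) (e1 hx) (e4 hy)
  rw [h1]; norm_num

theorem Nrm.rho_sq (hx : S.K v x = x) (hy : S.K v y = (4 : ℝ) • y) :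
    S.R v y (S.R v y x) = -(4 * ⟪y, y⟫) • x := by
  have h1 := T_sq (a := 1) (b := 2) (inner_self_one hv) one_pos one_lt_two (h.bd v hv) (e1 hx)
    (e4 hy)
  rw [h1]; norm_num

/-- Clifford relations -/
theorem Nrm.cliff (hx : S.K v x = x) (hy : S.K v y = (4 : ℝ) • y)
    (hy' : S.K v y' = (4 : ℝ) • y') :
    S.R v y (S.R v y' x) + S.R v y' (S.R v y x) = -(8 * ⟪y, y'⟫) • x := by
  have h1 := h.rho_sq hv hx hy
  have h2 := h.rho_sq hv hx hy'
  have h3 := h.rho_sq hv (y := y + y') hx (by rw [map_add, hy, hy', smul_add])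
  simp only [map_add, LinearMap.add_apply, h1, h2, inner_add_left, inner_add_right] at h3
  have h4 : S.R v y (S.R v y' x) + S.R v y' (S.R v y x) =
      (-(4 * ⟪y, y⟫) • x + S.R v y' (S.R v y x) + (S.R v y (S.R v y' x) +
        -(4 * ⟪y', y'⟫) • x)) - (-(4 * ⟪y, y⟫) • x + -(4 * ⟪y', y'⟫) • x) := by abel
  rw [h4, h3, real_inner_comm y y']
  module

/-- the `E4`-part of `R v x x'` -/
def om (S : ACT V) (v x x' : V) : V := (1 / 2 : ℝ) • (S.R v x x' - S.R v x' x)

omit h hv in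
theorem om_anti (S : ACT V) (v x x' : V) : om S v x' x = - om S v x x' := by
  unfold om; module

omit h in
theorem K_om (hx : S.K v x = x) (hx' : S.K v x' = x') :
    S.K v (om S v x x') = (4 : ℝ) • om S v x x' := by
  have h1 := K_S (a := 1) (b := 1) one_ne_zero one_ne_zero (e1 hx) (e1 hx')
  have h2 : om S v x x' = -(1 / 2 : ℝ) • ((1 : ℝ)⁻¹ • S.R v x' x - (1 : ℝ)⁻¹ • S.R v x x') := by
    unfold om
    match_scalars <;> norm_num
  rw [h2, map_smul, h1]
  module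

omit h in
theorem rho_xx (hx : S.K v x = x) (hx' : S.K v x' = x') :
    S.R v x x' = -⟪x, x'⟫ • v + om S v x x' := by
  have hv1 := inner_self_one hv
  have h1 := K_D (a := 1) (b := 1) one_ne_zero one_ne_zero (e1 hx) (e1 hx')
  rw [sub_self, zero_pow two_ne_zero, zero_smul, inv_one, one_smul, one_smul] at h1
  have h2 := ker_K hv1 h1
  have h3 : ⟪S.R v x' x + S.R v x x', v⟫ = -(2 * ⟪x, x'⟫) := by
    rw [inner_add_left, S.skew, S.skew, ← K_apply, ← K_apply, hx, hx', real_inner_comm x x']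
    ring
  rw [h3] at h2
  have h4 : S.R v x x' = (1 / 2 : ℝ) • (S.R v x' x + S.R v x x') + om S v x x' := by
    unfold om; module
  rw [h4, h2]
  module

/-- `⟪ω(x,x'), y⟫` -/
theorem Nrm.inner_om (hx : S.K v x = x) (hx' : S.K v x' = x') (hy : S.K v y = (4 : ℝ) • y) :
    ⟪om S v x x', y⟫ = -(1 / 2 * ⟪x', S.R v y x⟫) := by
  have h1 : ⟪S.R v x x', y⟫ = -(1 / 2 * ⟪x', S.R v y x⟫) := by
    rw [S.skew, h.rho_xy hv hx hy, inner_smul_right]
  have h2 : ⟪v, y⟫ = 0 := by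
    rw [real_inner_comm]; exact orth_of_eig (by norm_num) hy
  rw [rho_xx hv hx hx', inner_add_left, inner_smul_left, h2, mul_zero, zero_add] at h1
  exact h1

theorem Nrm.R_yy (hy : S.K v y = (4 : ℝ) • y) (hy' : S.K v y' = (4 : ℝ) • y') (u : V) :
    S.R y y' u = (1 / 4 : ℝ) • (S.R v y (S.R v y' u) - S.R v y' (S.R v y u)) := by
  have h1 := S.comm_rho v y y' u
  rw [hy, h.rho_yy hv hy hy', map_smul, map_smul, R_self, smul_zero, LinearMap.zero_apply,
    add_zero, LinearMap.smul_apply, LinearMap.smul_apply] at h1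
  rw [h1, smul_smul]
  norm_num

theorem Nrm.R_xy' (hx : S.K v x = x) (hy : S.K v y = (4 : ℝ) • y) (u : V) :
    S.R x y u = (1 / 2 : ℝ) • S.R v (S.R v y x) u := by
  have h1 := R_xy (a := 1) (b := 2) one_pos two_pos (h.bd v hv) (e1 hx) (e4 hy) u
  rw [h1, smul_smul]
  norm_num

omit h in
theorem R_xx (hx : S.K v x = x) (hx' : S.K v x' = x') (u : V) :
    S.R x x' u = S.R v x (S.R v x' u) - S.R v x' (S.R v x u) - S.R v (om S v x x') u := by
  have h1 := S.comm_rho v x x' u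
  rw [hx, rho_xx hv hx hx', map_add, map_smul, R_self, smul_zero, zero_add] at h1
  rw [h1]
  abel

/-! ### the leaf -/

/-- the leaf through `v` -/
def Lf (S : ACT V) (v : V) : Submodule ℝ V := (ℝ ∙ v) ⊔ (End.eigenspace (S.K v) 4)

omit h hv in
theorem mem_Lf : z ∈ Lf S v ↔ ∃ (s : ℝ) (y : V), S.K v y = (4 : ℝ) • y ∧ z = s • v + y := by
  unfold Lf
  rw [Submodule.mem_sup]
  constructor
  · rintro ⟨w, hw, y, hy, rfl⟩
    obtain ⟨s, rfl⟩ := Submodule.mem_span_singleton.1 hw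
    exact ⟨s, y, End.mem_eigenspace_iff.1 hy, rfl⟩
  · rintro ⟨s, y, hy, rfl⟩
    exact ⟨s • v, Submodule.mem_span_singleton.2 ⟨s, rfl⟩, y, End.mem_eigenspace_iff.2 hy, rfl⟩

omit h hv in
theorem self_mem_Lf : v ∈ Lf S v := mem_Lf.2 ⟨1, 0, by simp, by simp⟩

omit h hv in
theorem e4_mem_Lf (hy : S.K v y = (4 : ℝ) • y) : y ∈ Lf S v := mem_Lf.2 ⟨0, y, hy, by simp⟩

/-- **the leaf is a Lie triple of constant curvature `-4`** -/
theorem Nrm.leaf_const {z₁ z₂ z₃ : V} (h1 : z₁ ∈ Lf S v) (h2 : z₂ ∈ Lf S v) (h3 : z₃ ∈ Lf S v) :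
    S.R z₁ z₂ z₃ = (-4 : ℝ) • (⟪z₂, z₃⟫ • z₁ - ⟪z₁, z₃⟫ • z₂) := by
  obtain ⟨s₁, y₁, hy₁, rfl⟩ := mem_Lf.1 h1
  obtain ⟨s₂, y₂, hy₂, rfl⟩ := mem_Lf.1 h2
  obtain ⟨s₃, y₃, hy₃, rfl⟩ := mem_Lf.1 h3
  have hv1 := inner_self_one hv
  have o : ∀ {y}, S.K v y = (4 : ℝ) • y → ⟪y, v⟫ = 0 := fun hy => orth_of_eig (by norm_num) hy
  have o' : ∀ {y}, S.K v y = (4 : ℝ) • y → ⟪v, y⟫ = 0 := fun hy => by
    rw [real_inner_comm]; exact o hy
  have ey : ∀ {y}, S.K v y = (4 : ℝ) • y → S.R v y v = (4 : ℝ) • y := fun hy => hy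
  have er : ∀ {y}, S.K v y = (4 : ℝ) • y → S.R y v = - S.R v y := fun _ => S.anti' _ _
  simp only [map_add, map_smul, LinearMap.add_apply, LinearMap.smul_apply, R_self,
    LinearMap.zero_apply, h.R_yy hv hy₁ hy₂, er hy₁, LinearMap.neg_apply, ey hy₁, ey hy₂,
    h.rho_yy hv hy₁ hy₂, h.rho_yy hv hy₂ hy₁, h.rho_yy hv hy₁ hy₃, h.rho_yy hv hy₂ hy₃,
    inner_add_left, inner_add_right, inner_smul_left, inner_smul_right, hv1, o hy₁, o hy₂,
    o' hy₃, real_inner_comm y₁ y₂]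
  simp only [conj_trivial]
  module

/-- Jacobi operator of a unit vector of the leaf, on the leaf -/
theorem Nrm.K_leaf (hu : u ∈ Lf S v) (hu1 : ‖u‖ = 1) (hz : z ∈ Lf S v) :
    S.K u z = (4 : ℝ) • (z - ⟪z, u⟫ • u) := by
  rw [K_apply, h.leaf_const hv hu hz hu, inner_self_one hu1]
  module

/-- Jacobi operator of a unit vector of the leaf, off the leaf -/
theorem Nrm.K_leaf_x (hu : u ∈ Lf S v) (hu1 : ‖u‖ = 1) (hx : S.K v x = x) :
    S.K u x = x := by
  obtain ⟨s, y, hy, rfl⟩ := mem_Lf.1 hu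
  have hv1 := inner_self_one hv
  have ey : S.R v x v = x := hx
  have hyv : ⟪y, v⟫ = 0 := orth_of_eig (by norm_num) hy
  have h1 := inner_self_one hu1
  rw [inner_add_left, inner_add_right, inner_add_right, inner_smul_left, inner_smul_right,
    inner_smul_left, inner_smul_right, hv1, hyv, real_inner_comm y v, hyv] at h1
  simp only [conj_trivial, mul_zero, add_zero, zero_add, mul_one] at h1
  have hT := h.K_rho_yx hv hx hy
  have e1 : S.R y x v = -((1 / 2 : ℝ) • S.R v y x) := by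
    rw [S.anti y x v, h.R_xy' hv hx hy, ← K_apply S v, hT]
  have e2 : S.R y x y = ⟪y, y⟫ • x := by
    rw [S.anti y x y, h.R_xy' hv hx hy, h.rho_xy hv hT hy, h.rho_sq hv hx hy]
    module
  have e3 : S.R v x y = (1 / 2 : ℝ) • S.R v y x := h.rho_xy hv hx hy
  rw [K_apply]
  simp only [map_add, map_smul, LinearMap.add_apply, LinearMap.smul_apply, ey, e1, e2, e3]
  have h2 : ⟪y, y⟫ = 1 - s * s := by linarith
  rw [h2]
  module

/-- decomposition of a vector along the leaf -/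
theorem Nrm.leaf_decomp (z : V) : ∃ w x, w ∈ Lf S v ∧ S.K v x = x ∧ z = w + x := by
  refine ⟨⟪z, v⟫ • v + pr2 S 2 v z, pr1 S 2 v z, ?_, ?_, ?_⟩
  · refine mem_Lf.2 ⟨_, _, ?_, rfl⟩
    rw [h.K_pr2 hv]; norm_num
  · rw [h.K_pr1 hv]; norm_num
  · nth_rewrite 1 [h.decomp hv z]
    abel

/-- **the leaf is the same for all its unit vectors** -/
theorem Nrm.Lf_eq (hu : u ∈ Lf S v) (hu1 : ‖u‖ = 1) : Lf S u = Lf S v := by
  have hle : Lf S u ≤ Lf S v := by
    intro z hz
    obtain ⟨s, y, hy, rfl⟩ := mem_Lf.1 hz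
    refine Submodule.add_mem _ (Submodule.smul_mem _ _ hu) ?_
    obtain ⟨w, x, hw, hx, rfl⟩ := h.leaf_decomp hv y
    have hyu : ⟪w + x, u⟫ = 0 := orth_of_eig (by norm_num) hy
    have hxu : ⟪x, u⟫ = 0 := by
      obtain ⟨s', y', hy', rfl⟩ := mem_Lf.1 hu
      have h1 : ⟪x, v⟫ = 0 := orth_of_eig one_ne_zero (by rw [one_smul]; exact hx)
      have h2 : ⟪x, y'⟫ = 0 := by
        have h3 := S.K_symm v x y'
        rw [hx, hy', inner_smul_right] at h3
        linarith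
      rw [inner_add_right, inner_smul_right, h1, h2]
      ring
    have hwu : ⟪w, u⟫ = 0 := by
      rw [inner_add_left, hxu, add_zero] at hyu
      exact hyu
    rw [map_add, h.K_leaf hv hu hu1 hw, h.K_leaf_x hv hu hu1 hx, hwu, zero_smul, sub_zero,
      smul_add] at hy
    have hx0 : (3 : ℝ) • x = 0 := by
      have h4 : (3 : ℝ) • x = (4 : ℝ) • w + (4 : ℝ) • x - ((4 : ℝ) • w + x) := by module
      rw [h4, ← hy, sub_self]
    have hx0' : x = 0 := (smul_eq_zero.1 hx0).resolve_left (by norm_num)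
    rw [hx0', add_zero]
    exact hw
  refine le_antisymm hle ?_
  intro z hz
  refine mem_Lf.2 ⟨⟪z, u⟫, z - ⟪z, u⟫ • u, ?_, by abel⟩
  have hz' : z - ⟪z, u⟫ • u ∈ Lf S v := Submodule.sub_mem _ hz (Submodule.smul_mem _ _ hu)
  rw [h.K_leaf hv hu hu1 hz', inner_sub_left, inner_smul_left, inner_self_one hu1]
  simp

end Two

end ACT

end Vale.Agent.P207.H747
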