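import Vale.Agent.P207.H747.J2

/-!
# P207: the Clifford structure of a rank one curvature tensor; the multiplicity of `4`

`J v y = (1/2) R v y` on `E1 v`. If `E1 v ≠ 0` and `dim E4 v ≥ 2`, then `dim E4 v = 3`, or
`dim E4 v = 7` and `dim E1 v = 8`.
-/

open scoped RealInnerProductSpace Topology
open Module Filter

noncomputable section

set_option linter.unusedSectionVars false

namespace Vale.Agent.P207.H747

namespace ACT

variable {V : Type*} [NormedAddCommGroup V] [InnerProductSpace ℝ V] [FiniteDimensional ℝ V]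

/-- Clifford multiplication -/
def J (S : ACT V) (v y : V) : V →ₗ[ℝ] V := (1 / 2 : ℝ) • S.R v y

variable {S : ACT V} {v x x' y y' y₁ y₂ y₃ u z w : V}

theorem J_apply : S.J v y x = (1 / 2 : ℝ) • S.R v y x := rfl

theorem R_eq_J : S.R v y x = (2 : ℝ) • S.J v y x := by
  rw [J_apply, smul_smul]; norm_num

theorem J_add : S.J v (y + y') x = S.J v y x + S.J v y' x := by
  simp only [J_apply, map_add, LinearMap.add_apply, smul_add]

theorem J_sub : S.J v (y - y') x = S.J v y x - S.J v y' x := by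
  simp only [J_apply, map_sub, LinearMap.sub_apply, smul_sub]

theorem J_smul (c : ℝ) : S.J v (c • y) x = c • S.J v y x := by
  simp only [J_apply, map_smul, LinearMap.smul_apply, smul_comm c]

theorem J_neg : S.J v (-y) x = - S.J v y x := by
  simp only [J_apply, map_neg, LinearMap.neg_apply, smul_neg]

theorem J_skew : ⟪S.J v y x, z⟫ = -⟪x, S.J v y z⟫ := by
  rw [J_apply, J_apply, inner_smul_left, inner_smul_right, S.skew]
  simp

section Two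

variable (h : S.Nrm 2) (hv : ‖v‖ = 1)
include h hv

theorem Nrm.J_mem (hx : S.K v x = x) (hy : S.K v y = (4 : ℝ) • y) :
    S.K v (S.J v y x) = S.J v y x := by
  rw [J_apply, map_smul, h.K_rho_yx hv hx hy]

theorem Nrm.J_J (hx : S.K v x = x) (hy : S.K v y = (4 : ℝ) • y)
    (hy' : S.K v y' = (4 : ℝ) • y') :
    S.J v y (S.J v y' x) = -(2 * ⟪y, y'⟫) • x - S.J v y' (S.J v y x) := by
  have h1 := h.cliff hv hx hy hy'
  simp only [J_apply, map_smul, smul_smul]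
  linear_combination (norm := module) (1 / 4 : ℝ) • h1

theorem Nrm.J_sq (hx : S.K v x = x) (hy : S.K v y = (4 : ℝ) • y) :
    S.J v y (S.J v y x) = -⟪y, y⟫ • x := by
  have h1 := h.rho_sq hv hx hy
  simp only [J_apply, map_smul, smul_smul]
  linear_combination (norm := module) (1 / 4 : ℝ) • h1

/-- orthogonal vectors anticommute -/
theorem Nrm.J_anti (hx : S.K v x = x) (hy : S.K v y = (4 : ℝ) • y)
    (hy' : S.K v y' = (4 : ℝ) • y') (ho : ⟪y, y'⟫ = 0) :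
    S.J v y (S.J v y' x) = - S.J v y' (S.J v y x) := by
  rw [h.J_J hv hx hy hy', ho]; module

theorem Nrm.J_inner (hx : S.K v x = x) (hy : S.K v y = (4 : ℝ) • y)
    (hy' : S.K v y' = (4 : ℝ) • y') :
    ⟪S.J v y x, S.J v y' x⟫ = ⟪y, y'⟫ * ⟪x, x⟫ := by
  rw [J_apply, J_apply, inner_smul_left, inner_smul_right, h.inner_rho hv hx hy hy']
  simp only [conj_trivial]
  ring

theorem Nrm.J_inner_self (_ : S.K v x = x) (_ : S.K v y = (4 : ℝ) • y) :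
    ⟪S.J v y x, x⟫ = 0 := by
  rw [J_apply, inner_smul_left, S.inner_R_self, mul_zero]

theorem Nrm.J_inj (hx : S.K v x = x) (hx0 : x ≠ 0) (hy : S.K v y = (4 : ℝ) • y)
    (hy' : S.K v y' = (4 : ℝ) • y') (e : S.J v y x = S.J v y' x) : y = y' := by
  have h0 : S.J v (y - y') x = 0 := by rw [J_sub, e, sub_self]
  have h1 := h.J_inner hv hx (E4_sub hy hy') (E4_sub hy hy')
  rw [h0, inner_zero_left] at h1
  have h2 : ⟪x, x⟫ ≠ 0 := (real_inner_self_pos.2 hx0).ne'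
  have h3 : ⟪y - y', y - y'⟫ = 0 := by
    rcases mul_eq_zero.1 h1.symm with h4 | h4
    · exact h4
    · exact absurd h4 h2
  exact sub_eq_zero.1 (inner_self_eq_zero.1 h3)

/-- the `J²`-condition for all `x ∈ E1 v` -/
theorem Nrm.J_J2 (hx : S.K v x = x) (hy₁ : S.K v y₁ = (4 : ℝ) • y₁)
    (hy₂ : S.K v y₂ = (4 : ℝ) • y₂) :
    ∃ y₃, S.K v y₃ = (4 : ℝ) • y₃ ∧ S.J v y₁ (S.J v y₂ x) = -⟪y₁, y₂⟫ • x + S.J v y₃ x := by
  by_cases hx0 : x = 0
  · exact ⟨0, by simp, by simp [hx0]⟩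
  have hn : ‖x‖ ≠ 0 := norm_ne_zero_iff.2 hx0
  set x₁ := ‖x‖⁻¹ • x with hx₁
  have hx₁n : ‖x₁‖ = 1 := by
    rw [hx₁, norm_smul, norm_inv, norm_norm, inv_mul_cancel₀ hn]
  have hx₁e : S.K v x₁ = x₁ := by rw [hx₁, map_smul, hx]
  have hxx : x = ‖x‖ • x₁ := by
    rw [hx₁, smul_smul, mul_inv_cancel₀ hn, one_smul]
  have hT1 := h.K_rho_yx hv hx₁e hy₁
  have hT2 := h.K_rho_yx hv hx₁e hy₂
  have key := h.J2 hv hx₁e hx₁n hy₁ hy₂
  refine ⟨(-1 / 4 : ℝ) • om S v (S.R v y₁ x₁) (S.R v y₂ x₁),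
    E4_smul _ (K_om hv hT1 hT2), ?_⟩
  have key2 : S.J v y₁ (S.J v y₂ x₁) = -⟪y₁, y₂⟫ • x₁ +
      S.J v ((-1 / 4 : ℝ) • om S v (S.R v y₁ x₁) (S.R v y₂ x₁)) x₁ := by
    rw [J_smul]
    simp only [J_apply, map_smul, smul_smul]
    linear_combination (norm := module) (1 / 4 : ℝ) • key
  set y₃ := (-1 / 4 : ℝ) • om S v (S.R v y₁ x₁) (S.R v y₂ x₁) with hy₃
  have e : ‖x‖ • (S.J v y₁ (S.J v y₂ x₁)) = S.J v y₁ (S.J v y₂ x) := by
    rw [← map_smul, ← map_smul, ← hxx]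
  have e' : ‖x‖ • S.J v y₃ x₁ = S.J v y₃ x := by rw [← map_smul, ← hxx]
  have e'' : -⟪y₁, y₂⟫ • x = ‖x‖ • (-⟪y₁, y₂⟫ • x₁) := by
    rw [smul_comm, ← hxx]
  rw [← e, ← e', e'', key2, smul_add]

/-- third unit -/
theorem Nrm.third (hx : S.K v x = x) (hx1 : ‖x‖ = 1) (hy₁ : S.K v y₁ = (4 : ℝ) • y₁)
    (hy₂ : S.K v y₂ = (4 : ℝ) • y₂) (n1 : ⟪y₁, y₁⟫ = 1) (n2 : ⟪y₂, y₂⟫ = 1)
    (o : ⟪y₁, y₂⟫ = 0) :
    ∃ y₃, S.K v y₃ = (4 : ℝ) • y₃ ∧ S.J v y₁ (S.J v y₂ x) = S.J v y₃ x ∧ ⟪y₃, y₃⟫ = 1 := by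
  obtain ⟨y₃, h3, e3⟩ := h.J_J2 hv hx hy₁ hy₂
  rw [o, neg_zero, zero_smul, zero_add] at e3
  refine ⟨y₃, h3, e3, ?_⟩
  have hxx := inner_self_one hx1
  have h4 := h.J_inner hv hx h3 h3
  rw [← e3, h.J_inner hv (h.J_mem hv hx hy₂) hy₁ hy₁, h.J_inner hv hx hy₂ hy₂, n1, n2, hxx] at h4
  linarith

/-- inner products with the third unit -/
theorem Nrm.inner_third (hx : S.K v x = x) (hx1 : ‖x‖ = 1) (hy₃ : S.K v y₃ = (4 : ℝ) • y₃)
    (e3 : S.J v y₁ (S.J v y₂ x) = S.J v y₃ x) (hw : S.K v w = (4 : ℝ) • w) :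
    ⟪y₃, w⟫ = -⟪S.J v y₂ x, S.J v y₁ (S.J v w x)⟫ := by
  have hxx := inner_self_one hx1
  have h4 := h.J_inner hv hx hy₃ hw
  rw [← e3, hxx, mul_one] at h4
  rw [← h4, J_skew]

end Two

end ACT

end Vale.Agent.P207.H747
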