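import Vale.Agent.P207.H747.Alg4

/-!
# P207: parallel negatively curved algebraic curvature tensors from their components
-/

open scoped RealInnerProductSpace Topology
open Module Filter

noncomputable section

namespace Vale.Agent.P207.H747

variable {n : ℕ}

/-- the components `r i j k l = ⟨R(e_i, e_j) e_k, e_l⟩` of a parallel negatively curved algebraic
curvature tensor -/
structure CCT (r : Fin n → Fin n → Fin n → Fin n → ℝ) : Prop where
  anti : ∀ i j k l, r i j k l = - r j i k l
  skew : ∀ i j k l, r i j k l = - r i j l k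
  bianchi : ∀ i j k l, r i j k l + r j k i l + r k i j l = 0
  der : ∀ i j a b c d, ∑ k, (r i j k a * r k b c d + r i j k b * r a k c d
    + r i j k c * r a b k d + r i j k d * r a b c k) = 0
  neg : ∀ v w : Fin n → ℝ, ∑ i, v i * v i = 1 → ∑ i, v i * w i = 0 → w ≠ 0 →
    0 < ∑ l, ∑ i, ∑ j, ∑ k, v i * w j * v k * r i j k l * w l

/-- the model space -/
abbrev En (n : ℕ) : Type := EuclideanSpace ℝ (Fin n)

/-- basis vectors -/
abbrev ee (i : Fin n) : En n := EuclideanSpace.single i 1

theorem en_sum (x : En n) : x = ∑ i, x i • ee i := by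
  have h := (EuclideanSpace.basisFun (Fin n) ℝ).sum_repr x
  simpa [EuclideanSpace.basisFun_apply, EuclideanSpace.basisFun_repr] using h.symm

theorem en_induct {P : En n → Prop} (h0 : P 0) (hadd : ∀ x y, P x → P y → P (x + y))
    (hsmul : ∀ (c : ℝ) x, P x → P (c • x)) (hb : ∀ i, P (ee i)) (x : En n) : P x := by
  rw [en_sum x]
  exact Finset.sum_induction _ P hadd h0 fun i _ => hsmul _ _ (hb i)

/-- the trilinear map with the components `r` -/
def Rmap (r : Fin n → Fin n → Fin n → Fin n → ℝ) : En n →ₗ[ℝ] En n →ₗ[ℝ] En n →ₗ[ℝ] En n :=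
  LinearMap.mk₂ ℝ (fun x y =>
    { toFun := fun z => WithLp.toLp 2 fun l => ∑ i, ∑ j, ∑ k, x i * y j * z k * r i j k l
      map_add' := fun z z' => by
        ext l
        simp only [PiLp.add_apply, ← Finset.sum_add_distrib]
        refine Finset.sum_congr rfl fun i _ => Finset.sum_congr rfl fun j _ =>
          Finset.sum_congr rfl fun k _ => ?_
        ring
      map_smul' := fun c z => by
        ext l
        simp only [PiLp.smul_apply, smul_eq_mul, RingHom.id_apply, Finset.mul_sum]
        refine Finset.sum_congr rfl fun i _ => Finset.sum_congr rfl fun j _ =>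
          Finset.sum_congr rfl fun k _ => ?_
        ring })
    (fun x x' y => by
      ext z l
      simp only [LinearMap.coe_mk, AddHom.coe_mk, LinearMap.add_apply, PiLp.add_apply,
        ← Finset.sum_add_distrib]
      refine Finset.sum_congr rfl fun i _ => Finset.sum_congr rfl fun j _ =>
        Finset.sum_congr rfl fun k _ => ?_
      ring)
    (fun c x y => by
      ext z l
      simp only [LinearMap.coe_mk, AddHom.coe_mk, LinearMap.smul_apply, PiLp.smul_apply,
        smul_eq_mul, Finset.mul_sum]
      refine Finset.sum_congr rfl fun i _ => Finset.sum_congr rfl fun j _ =>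
        Finset.sum_congr rfl fun k _ => ?_
      ring)
    (fun x y y' => by
      ext z l
      simp only [LinearMap.coe_mk, AddHom.coe_mk, LinearMap.add_apply, PiLp.add_apply,
        ← Finset.sum_add_distrib]
      refine Finset.sum_congr rfl fun i _ => Finset.sum_congr rfl fun j _ =>
        Finset.sum_congr rfl fun k _ => ?_
      ring)
    (fun c x y => by
      ext z l
      simp only [LinearMap.coe_mk, AddHom.coe_mk, LinearMap.smul_apply, PiLp.smul_apply,
        smul_eq_mul, Finset.mul_sum]
      refine Finset.sum_congr rfl fun i _ => Finset.sum_congr rfl fun j _ =>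
        Finset.sum_congr rfl fun k _ => ?_
      ring)

theorem Rmap_apply (r : Fin n → Fin n → Fin n → Fin n → ℝ) (x y z : En n) (l : Fin n) :
    Rmap r x y z l = ∑ i, ∑ j, ∑ k, x i * y j * z k * r i j k l := rfl

theorem Rmap_ee (r : Fin n → Fin n → Fin n → Fin n → ℝ) (i j k l : Fin n) :
    Rmap r (ee i) (ee j) (ee k) l = r i j k l := by
  rw [Rmap_apply]
  rw [Finset.sum_eq_single i (fun i' _ hi => by simp [hi]) (by simp)]
  rw [Finset.sum_eq_single j (fun i' _ hi => by simp [hi]) (by simp)]
  rw [Finset.sum_eq_single k (fun i' _ hi => by simp [hi]) (by simp)]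
  simp

theorem inner_en (x y : En n) : ⟪x, y⟫ = ∑ i, x i * y i := by
  rw [PiLp.inner_apply]
  exact Finset.sum_congr rfl fun i _ => by simp [mul_comm]

theorem inner_ee (x : En n) (l : Fin n) : ⟪x, ee l⟫ = x l := by
  rw [inner_en, Finset.sum_eq_single l (fun i' _ hi => by simp [hi]) (by simp)]
  simp

/-- the algebraic curvature tensor with given components -/
def CCT.toACT {r : Fin n → Fin n → Fin n → Fin n → ℝ} (h : CCT r) : ACT (En n) where
  R := Rmap r
  anti x y z := by
    ext l
    rw [PiLp.neg_apply, Rmap_apply, Rmap_apply, Finset.sum_comm, ← Finset.sum_neg_distrib]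
    refine Finset.sum_congr rfl fun i _ => ?_
    rw [← Finset.sum_neg_distrib]
    refine Finset.sum_congr rfl fun j _ => ?_
    rw [← Finset.sum_neg_distrib]
    refine Finset.sum_congr rfl fun k _ => ?_
    rw [h.anti j i k l]
    ring
  skew x y z w := by
    rw [inner_en, inner_en]
    have e1 : ∀ z w : En n, ∑ l, Rmap r x y z l * w l =
        ∑ i, ∑ j, ∑ k, ∑ l, x i * y j * z k * r i j k l * w l := by
      intro z w
      simp only [Rmap_apply, Finset.sum_mul]
      rw [Finset.sum_comm]
      refine Finset.sum_congr rfl fun i _ => ?_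
      rw [Finset.sum_comm]
      refine Finset.sum_congr rfl fun j _ => ?_
      rw [Finset.sum_comm]
    have e2 : ∑ l, z l * Rmap r x y w l = ∑ l, Rmap r x y w l * z l :=
      Finset.sum_congr rfl fun l _ => mul_comm _ _
    rw [e2, e1, e1]
    rw [← Finset.sum_neg_distrib]
    refine Finset.sum_congr rfl fun i _ => ?_
    rw [← Finset.sum_neg_distrib]
    refine Finset.sum_congr rfl fun j _ => ?_
    rw [Finset.sum_comm, ← Finset.sum_neg_distrib]
    refine Finset.sum_congr rfl fun k _ => ?_
    rw [← Finset.sum_neg_distrib]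
    refine Finset.sum_congr rfl fun l _ => ?_
    rw [h.skew i j l k]
    ring
  bianchi x y z := by
    revert x y z
    refine en_induct ?_ ?_ ?_ ?_
    · intro y z; simp
    · intro x x' hx hx' y z
      have h1 := hx y z
      have h2 := hx' y z
      simp only [map_add, LinearMap.add_apply]
      calc _ = (Rmap r x y z + Rmap r y z x + Rmap r z x y)
          + (Rmap r x' y z + Rmap r y z x' + Rmap r z x' y) := by abel
        _ = 0 := by rw [h1, h2, add_zero]
    · intro c x hx y z
      simp only [map_smul, LinearMap.smul_apply, ← smul_add, hx, smul_zero]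
    intro i
    refine en_induct ?_ ?_ ?_ ?_
    · intro z; simp
    · intro x x' hx hx' z
      have h1 := hx z
      have h2 := hx' z
      simp only [map_add, LinearMap.add_apply]
      calc _ = (Rmap r (ee i) x z + Rmap r x z (ee i) + Rmap r z (ee i) x)
          + (Rmap r (ee i) x' z + Rmap r x' z (ee i) + Rmap r z (ee i) x') := by abel
        _ = 0 := by rw [h1, h2, add_zero]
    · intro c x hx z
      simp only [map_smul, LinearMap.smul_apply, ← smul_add, hx, smul_zero]
    intro j
    refine en_induct ?_ ?_ ?_ ?_
    · simp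
    · intro x x' hx hx'
      simp only [map_add, LinearMap.add_apply]
      calc _ = (Rmap r (ee i) (ee j) x + Rmap r (ee j) x (ee i) + Rmap r x (ee i) (ee j))
          + (Rmap r (ee i) (ee j) x' + Rmap r (ee j) x' (ee i) + Rmap r x' (ee i) (ee j)) := by
            abel
        _ = 0 := by rw [hx, hx', add_zero]
    · intro c x hx
      simp only [map_smul, LinearMap.smul_apply, ← smul_add, hx, smul_zero]
    intro k
    ext l
    rw [PiLp.add_apply, PiLp.add_apply, Rmap_ee, Rmap_ee, Rmap_ee, PiLp.zero_apply]
    exact h.bianchi i j k l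
  der x y z w u := by
    revert x y z w u
    refine en_induct ?_ ?_ ?_ ?_
    · intro y z w u; simp
    · intro x x' hx hx' y z w u
      simp only [map_add, LinearMap.add_apply]
      calc _ = (Rmap r x y (Rmap r z w u) - Rmap r z w (Rmap r x y u))
          + (Rmap r x' y (Rmap r z w u) - Rmap r z w (Rmap r x' y u)) := by abel
        _ = _ := by rw [hx, hx']; abel
    · intro c x hx y z w u
      simp only [map_smul, LinearMap.smul_apply, ← smul_sub, ← smul_add, hx]
    intro i
    refine en_induct ?_ ?_ ?_ ?_
    · intro z w u; simp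
    · intro x x' hx hx' z w u
      simp only [map_add, LinearMap.add_apply]
      calc _ = (Rmap r (ee i) x (Rmap r z w u) - Rmap r z w (Rmap r (ee i) x u))
          + (Rmap r (ee i) x' (Rmap r z w u) - Rmap r z w (Rmap r (ee i) x' u)) := by abel
        _ = _ := by rw [hx, hx']; abel
    · intro c x hx z w u
      simp only [map_smul, LinearMap.smul_apply, ← smul_sub, ← smul_add, hx]
    intro j
    refine en_induct ?_ ?_ ?_ ?_
    · intro w u; simp
    · intro x x' hx hx' w u
      simp only [map_add, LinearMap.add_apply]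
      calc _ = (Rmap r (ee i) (ee j) (Rmap r x w u) - Rmap r x w (Rmap r (ee i) (ee j) u))
          + (Rmap r (ee i) (ee j) (Rmap r x' w u) - Rmap r x' w (Rmap r (ee i) (ee j) u)) := by
            abel
        _ = _ := by rw [hx, hx']; abel
    · intro c x hx w u
      simp only [map_smul, LinearMap.smul_apply, ← smul_sub, ← smul_add, hx]
    intro a
    refine en_induct ?_ ?_ ?_ ?_
    · intro u; simp
    · intro x x' hx hx' u
      simp only [map_add, LinearMap.add_apply]
      calc _ = (Rmap r (ee i) (ee j) (Rmap r (ee a) x u)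
            - Rmap r (ee a) x (Rmap r (ee i) (ee j) u))
          + (Rmap r (ee i) (ee j) (Rmap r (ee a) x' u)
            - Rmap r (ee a) x' (Rmap r (ee i) (ee j) u)) := by abel
        _ = _ := by rw [hx, hx']; abel
    · intro c x hx u
      simp only [map_smul, LinearMap.smul_apply, ← smul_sub, ← smul_add, hx]
    intro b
    refine en_induct ?_ ?_ ?_ ?_
    · simp
    · intro x x' hx hx'
      simp only [map_add, LinearMap.add_apply]
      calc _ = (Rmap r (ee i) (ee j) (Rmap r (ee a) (ee b) x)
            - Rmap r (ee a) (ee b) (Rmap r (ee i) (ee j) x))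
          + (Rmap r (ee i) (ee j) (Rmap r (ee a) (ee b) x')
            - Rmap r (ee a) (ee b) (Rmap r (ee i) (ee j) x')) := by abel
        _ = _ := by rw [hx, hx']; abel
    · intro c x hx
      simp only [map_smul, LinearMap.smul_apply, ← smul_sub, ← smul_add, hx]
    intro c
    have e : ∀ i j k, Rmap r (ee i) (ee j) (ee k) = ∑ m, r i j k m • ee m := by
      intro i j k
      rw [en_sum (Rmap r (ee i) (ee j) (ee k))]
      exact Finset.sum_congr rfl fun m _ => by rw [Rmap_ee]
    ext d
    rw [PiLp.sub_apply, PiLp.add_apply]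
    have f1 : ∀ i j a b c, Rmap r (ee i) (ee j) (Rmap r (ee a) (ee b) (ee c)) d =
        ∑ k, r a b c k * r i j k d := by
      intro i j a b c
      rw [e a b c, map_sum]
      simp only [map_smul, WithLp.ofLp_sum, Finset.sum_apply, PiLp.smul_apply, smul_eq_mul,
        Rmap_ee]
    have f2 : Rmap r (Rmap r (ee i) (ee j) (ee a)) (ee b) (ee c) d =
        ∑ k, r i j a k * r k b c d := by
      rw [e i j a, map_sum]
      simp only [map_smul, LinearMap.sum_apply, LinearMap.smul_apply, WithLp.ofLp_sum,
        Finset.sum_apply, PiLp.smul_apply, smul_eq_mul, Rmap_ee]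
    have f3 : Rmap r (ee a) (Rmap r (ee i) (ee j) (ee b)) (ee c) d =
        ∑ k, r i j b k * r a k c d := by
      rw [e i j b, map_sum]
      simp only [map_smul, LinearMap.sum_apply, LinearMap.smul_apply, WithLp.ofLp_sum,
        Finset.sum_apply, PiLp.smul_apply, smul_eq_mul, Rmap_ee]
    rw [f1, f1, f2, f3]
    have h1 := h.der i j a b c d
    simp only [Finset.sum_add_distrib] at h1
    have g1 : ∑ k, r i j k a * r k b c d = - ∑ k, r i j a k * r k b c d := by
      rw [← Finset.sum_neg_distrib]
      exact Finset.sum_congr rfl fun k _ => by rw [h.skew i j k a]; ring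
    have g2 : ∑ k, r i j k b * r a k c d = - ∑ k, r i j b k * r a k c d := by
      rw [← Finset.sum_neg_distrib]
      exact Finset.sum_congr rfl fun k _ => by rw [h.skew i j k b]; ring
    have g3 : ∑ k, r i j k c * r a b k d = - ∑ k, r i j c k * r a b k d := by
      rw [← Finset.sum_neg_distrib]
      exact Finset.sum_congr rfl fun k _ => by rw [h.skew i j k c]; ring
    have g4 : ∑ k, r i j k d * r a b c k = ∑ k, r a b c k * r i j k d :=
      Finset.sum_congr rfl fun k _ => by ring
    linarith
  neg v w hv hw hw0 := by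
    rw [inner_en] at hv hw ⊢
    have h1 := h.neg v w hv hw (fun h0 => hw0 (by ext i; simpa using congrFun h0 i))
    simp only [Rmap_apply, Finset.sum_mul]
    exact h1

theorem CCT.toACT_R {r : Fin n → Fin n → Fin n → Fin n → ℝ} (h : CCT r) (i j k l : Fin n) :
    h.toACT.R (ee i) (ee j) (ee k) l = r i j k l := Rmap_ee r i j k l

end Vale.Agent.P207.H747
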