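import Vale.Agent.P207.H747.Alg4

/-!
# P207: parallel negatively curved algebraic curvature tensors (rank one), part 5

The multiplicities; for `x` in the eigenspace of `1` the eigenspace of `4` of `K x` is
`{R v y x | y ∈ E4 v}`, and `R v y₁ (R v y₂ x) = -4 ⟨y₁, y₂⟩ x + R v y₃ x` for some `y₃ ∈ E4 v`.
-/

open scoped RealInnerProductSpace Topology
open Module Filter

noncomputable section

set_option linter.unusedSectionVars false

namespace Vale.Agent.P207.H747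

namespace ACT

variable {V : Type*} [NormedAddCommGroup V] [InnerProductSpace ℝ V] [FiniteDimensional ℝ V]
variable {S : ACT V} {v x x' y y' y₁ y₂ y₃ u z : V}

/-- the eigenspace of `4` -/
abbrev E4 (S : ACT V) (v : V) : Submodule ℝ V := End.eigenspace (S.K v) 4

/-- the eigenspace of `1` -/
abbrev E1 (S : ACT V) (v : V) : Submodule ℝ V := End.eigenspace (S.K v) 1

theorem mem_E4 : y ∈ E4 S v ↔ S.K v y = (4 : ℝ) • y := End.mem_eigenspace_iff

theorem mem_E1 : x ∈ E1 S v ↔ S.K v x = x := by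
  rw [End.mem_eigenspace_iff, one_smul]

theorem E4_sub (hy : S.K v y = (4 : ℝ) • y) (hy' : S.K v y' = (4 : ℝ) • y') :
    S.K v (y - y') = (4 : ℝ) • (y - y') := by rw [map_sub, hy, hy', smul_sub]

theorem E4_add (hy : S.K v y = (4 : ℝ) • y) (hy' : S.K v y' = (4 : ℝ) • y') :
    S.K v (y + y') = (4 : ℝ) • (y + y') := by rw [map_add, hy, hy', smul_add]

theorem E4_smul (c : ℝ) (hy : S.K v y = (4 : ℝ) • y) : S.K v (c • y) = (4 : ℝ) • (c • y) := by
  rw [map_smul, hy, smul_comm]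

/-- eigenvectors of different eigenvalues are orthogonal -/
theorem inner_E1_E4 (hx : S.K v x = x) (hy : S.K v y = (4 : ℝ) • y) : ⟪x, y⟫ = 0 := by
  have h3 := S.K_symm v x y
  rw [hx, hy, inner_smul_right] at h3
  linarith

theorem eq_of_E4 (hy : S.K v y = (4 : ℝ) • y) (hy' : S.K v y' = (4 : ℝ) • y')
    (h : ∀ w, S.K v w = (4 : ℝ) • w → ⟪y, w⟫ = ⟪y', w⟫) : y = y' := by
  have h1 := h _ (E4_sub hy hy')
  have h2 : ⟪y - y', y - y'⟫ = 0 := by
    rw [inner_sub_left]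
    linarith
  exact sub_eq_zero.1 (inner_self_eq_zero.1 h2)

section Two

variable (h : S.Nrm 2) (hv : ‖v‖ = 1)
include h hv

theorem Nrm.inner_rho (hx : S.K v x = x) (hy : S.K v y = (4 : ℝ) • y)
    (hy' : S.K v y' = (4 : ℝ) • y') :
    ⟪S.R v y x, S.R v y' x⟫ = 4 * ⟪y, y'⟫ * ⟪x, x⟫ := by
  have h1 : ∀ y y', ⟪S.R v y x, S.R v y' x⟫ = -⟪x, S.R v y (S.R v y' x)⟫ := fun y y' =>
    S.skew v y x _
  have h2 := congrArg (fun t => ⟪x, t⟫) (h.cliff hv hx hy hy')
  simp only [inner_add_right, inner_smul_right] at h2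
  have h3 := h1 y y'
  have h4 := h1 y' y
  rw [real_inner_comm] at h4
  linarith

theorem Nrm.inner_rho_self (_ : S.K v x = x) (_ : S.K v y = (4 : ℝ) • y) :
    ⟪S.R v y x, x⟫ = 0 := S.inner_R_self v y x

theorem Nrm.om_rho (hx : S.K v x = x) (hy : S.K v y = (4 : ℝ) • y) :
    om S v x (S.R v y x) = -(2 * ⟪x, x⟫) • y := by
  have hT := h.K_rho_yx hv hx hy
  refine eq_of_E4 (K_om hv hx hT) (E4_smul _ hy) fun w hw => ?_
  rw [h.inner_om hv hx hT hw, h.inner_rho hv hx hy hw, inner_smul_left]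
  simp only [conj_trivial]
  ring

theorem Nrm.rho_x_E4 (hx : S.K v x = x) (hy : S.K v y = (4 : ℝ) • y) (c : ℝ) :
    S.R v x (c • y) = (c / 2) • S.R v y x := by
  rw [map_smul, h.rho_xy hv hx hy, smul_smul]
  congr 1; ring

/-- `R v y x` is in the eigenspace of `4` of `K x` -/
theorem Nrm.K_x (hx : S.K v x = x) (hx1 : ‖x‖ = 1) (hy : S.K v y = (4 : ℝ) • y) :
    S.K x (S.R v y x) = (4 : ℝ) • S.R v y x := by
  have hT := h.K_rho_yx hv hx hy
  have hxx := inner_self_one hx1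
  have e1 : om S v x (S.R v y x) = (-2 : ℝ) • y := by
    rw [h.om_rho hv hx hy, hxx]; norm_num
  have e2 : om S v (S.R v y x) x = (2 : ℝ) • y := by
    rw [om_anti, e1]; module
  have e3 : S.R v x x = -v := by
    rw [rho_xx hv hx hx, hxx]
    unfold om
    module
  have e4 : S.R v (S.R v y x) x = (2 : ℝ) • y := by
    rw [rho_xx hv hT hx, h.inner_rho_self hv hx hy, e2]
    module
  have e5 : S.R v (S.R v y x) v = S.R v y x := hT
  rw [K_apply, R_xx hv hx hT, e4, e3, e1, h.rho_x_E4 hv hx hy, map_neg, e5, map_smul,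
    LinearMap.smul_apply]
  module

end Two

/-! ### multiplicities -/

/-- the eigenspaces of two unit vectors have the same dimension -/
theorem finrank_E4 (hn : 2 ≤ finrank ℝ V) (S : ACT V) (hv : ‖v‖ = 1) (hu : ‖u‖ = 1) (c : ℝ) :
    finrank ℝ (End.eigenspace (S.K v) c) = finrank ℝ (End.eigenspace (S.K u) c) := by
  have key : ∀ v u : V, ‖v‖ = 1 → ‖u‖ = 1 →
      finrank ℝ (End.eigenspace (S.K v) c) ≤ finrank ℝ (End.eigenspace (S.K u) c) := by
    intro v u hv hu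
    obtain ⟨A, hA, rfl⟩ := exists_sym (S := S) hn hv hu
    have hle : Submodule.map (A : V →ₗ[ℝ] V) (End.eigenspace (S.K v) c) ≤
        End.eigenspace (S.K (A v)) c := by
      rintro _ ⟨z, hz, rfl⟩
      rw [End.mem_eigenspace_iff]
      have h1 : S.K v z = c • z := End.mem_eigenspace_iff.1 hz
      change S.K (A v) (A z) = c • A z
      rw [hA.K, h1, map_smul]
    have h2 := Submodule.finrank_mono hle
    have h3 := (Submodule.equivMapOfInjective (A : V →ₗ[ℝ] V) hA.injective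
      (End.eigenspace (S.K v) c)).finrank_eq
    rw [← h3] at h2
    exact h2
  exact le_antisymm (key v u hv hu) (key u v hu hv)

/-- **`E4 x = {R v y x | y ∈ E4 v}`** for unit vectors `x ∈ E1 v` -/
theorem Nrm.E4_x (hn : 2 ≤ finrank ℝ V) (h : S.Nrm 2) (hv : ‖v‖ = 1) (hx : S.K v x = x)
    (hx1 : ‖x‖ = 1) {z : V} (hz : S.K x z = (4 : ℝ) • z) :
    ∃ y, S.K v y = (4 : ℝ) • y ∧ z = S.R v y x := by
  set f : E4 S v →ₗ[ℝ] E4 S x :=
    { toFun := fun y => ⟨S.R v y x, mem_E4.2 (h.K_x hv hx hx1 (mem_E4.1 y.2))⟩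
      map_add' := fun y y' => by
        apply Subtype.ext
        simp
      map_smul' := fun c y => by
        apply Subtype.ext
        simp } with hf
  have hinj : Function.Injective f := by
    rw [injective_iff_map_eq_zero]
    intro y hy
    have h1 : S.R v y x = 0 := congrArg Subtype.val hy
    have h2 := h.inner_rho hv hx (mem_E4.1 y.2) (mem_E4.1 y.2)
    rw [h1, inner_zero_left, inner_self_one hx1] at h2
    have h3 : ⟪(y : V), y⟫ = 0 := by linarith
    exact Subtype.ext (inner_self_eq_zero.1 h3)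
  have hsurj : Function.Surjective f :=
    (LinearMap.injective_iff_surjective_of_finrank_eq_finrank
      (finrank_E4 hn S hv hx1 4)).1 hinj
  obtain ⟨y, hy⟩ := hsurj ⟨z, mem_E4.2 hz⟩
  exact ⟨y, mem_E4.1 y.2, (congrArg Subtype.val hy).symm⟩

/-- **the `J²`-condition** -/
theorem Nrm.J2 (h : S.Nrm 2) (hv : ‖v‖ = 1) (hx : S.K v x = x) (hx1 : ‖x‖ = 1)
    (hy₁ : S.K v y₁ = (4 : ℝ) • y₁) (hy₂ : S.K v y₂ = (4 : ℝ) • y₂) :
    S.R v y₁ (S.R v y₂ x) = -(4 * ⟪y₁, y₂⟫) • x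
      - (1 / 2 : ℝ) • S.R v (om S v (S.R v y₁ x) (S.R v y₂ x)) x := by
  have hxx := inner_self_one hx1
  have hT1 := h.K_rho_yx hv hx hy₁
  have hT2 := h.K_rho_yx hv hx hy₂
  have m0 : x ∈ Lf S x := self_mem_Lf
  have m1 : S.R v y₁ x ∈ Lf S x := e4_mem_Lf (h.K_x hv hx hx1 hy₁)
  have m2 : S.R v y₂ x ∈ Lf S x := e4_mem_Lf (h.K_x hv hx hx1 hy₂)
  have hx2 : ⟪x, S.R v y₂ x⟫ = 0 := by
    rw [real_inner_comm]; exact h.inner_rho_self hv hx hy₂
  have h1 := h.leaf_const hx1 m0 m1 m2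
  rw [h.inner_rho hv hx hy₁ hy₂, hxx, hx2] at h1
  rw [R_xx hv hx hT1, rho_xx hv hT1 hT2, h.inner_rho hv hx hy₁ hy₂, hxx, map_add, map_smul,
    h.rho_xy hv hx (K_om hv hT1 hT2), ← K_apply S v x, hx, rho_xx hv hx hT2, hx2,
    h.om_rho hv hx hy₂, h.om_rho hv hx hy₁, hxx, neg_zero, zero_smul,
    zero_add, map_smul, map_smul, LinearMap.smul_apply, h.rho_xy hv hT1 hy₂] at h1
  have hc := h.cliff hv hx hy₁ hy₂
  have hc' : S.R v y₂ (S.R v y₁ x) = -(8 * ⟪y₁, y₂⟫) • x - S.R v y₁ (S.R v y₂ x) := by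
    rw [← hc]; abel
  rw [hc'] at h1
  set Z := S.R v y₁ (S.R v y₂ x) with hZ
  set W := S.R v (om S v (S.R v y₁ x) (S.R v y₂ x)) x with hW
  linear_combination (norm := module) (1 : ℝ) • h1

end ACT

end Vale.Agent.P207.H747
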